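import Vale.Agent.P252.Main
import Vale.Agent.P252.Radial

/-! Assembly. -/

namespace Vale.Agent.P252

open Set Finset
open scoped ContDiff

variable {n : ℕ}

theorem SS_contDiff (i₀ : Fin n) : ContDiff ℝ ∞ (SS i₀) := by
  unfold SS
  apply contDiff_const.mul
  apply ContDiff.sum
  intro i _
  have h : ContDiff ℝ ∞ (fun x : EuclideanSpace ℝ (Fin n) => x i) :=
    (EuclideanSpace.proj i : EuclideanSpace ℝ (Fin n) →L[ℝ] ℝ).contDiff
  exact contDiff_const.mul (h.mul h)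

theorem uu_contDiff {R R1 R2 : ℝ → ℝ} (h : Rad R R1 R2) (hs : ContDiffOn ℝ ∞ R (Ici 0))
    (i₀ : Fin n) : ContDiff ℝ ∞ (uu i₀ R) := by
  have h1 : ContDiff ℝ ∞ (fun x => R (SS i₀ x)) := by
    rw [← contDiffOn_univ]
    exact hs.comp (SS_contDiff i₀).contDiffOn (fun x _ => SS_nonneg i₀ x)
  have h2 : ContDiff ℝ ∞ (fun x : EuclideanSpace ℝ (Fin n) => x i₀) :=
    (EuclideanSpace.proj i₀ : EuclideanSpace ℝ (Fin n) →L[ℝ] ℝ).contDiff
  unfold uu
  apply ContDiff.sqrt ((h1.pow 2).add (h2.pow 2))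
  intro x
  have := (h.pos _ (SS_nonneg i₀ x)).1
  positivity

theorem uu_axis {R : ℝ → ℝ} (hR0 : R 0 = 1) (i₀ : Fin n) (t : ℝ) :
    uu i₀ R (EuclideanSpace.single i₀ t) = Real.sqrt (1 + t ^ 2) := by
  have h1 : SS i₀ (EuclideanSpace.single i₀ t) = 0 := by
    unfold SS
    rw [Finset.sum_eq_zero, mul_zero]
    intro i _
    unfold cc
    split_ifs with h
    · ring
    · simp [h]
  unfold uu
  rw [h1, hR0]
  simp

/-- The solution is not a quadratic polynomial. -/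
theorem uu_not_quadratic {R : ℝ → ℝ} (hR0 : R 0 = 1) (i₀ : Fin n) :
    ¬ ∃ (A : Matrix (Fin n) (Fin n) ℝ) (b : Fin n → ℝ) (c : ℝ),
      ∀ x : EuclideanSpace ℝ (Fin n),
        uu i₀ R x = (1 / 2) * ∑ i, ∑ j, A i j * x i * x j + ∑ i, b i * x i + c := by
  rintro ⟨A, b, c, hq⟩
  have h1 : ∀ t : ℝ, Real.sqrt (1 + t ^ 2) = (1 / 2) * A i₀ i₀ * t ^ 2 + b i₀ * t + c := by
    intro t
    rw [← uu_axis hR0 i₀ t, hq]
    have e1 : ∑ i, ∑ j, A i j * (EuclideanSpace.single i₀ t : EuclideanSpace ℝ (Fin n)) i *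
        (EuclideanSpace.single i₀ t : EuclideanSpace ℝ (Fin n)) j = A i₀ i₀ * t ^ 2 := by
      rw [Finset.sum_eq_single i₀, Finset.sum_eq_single i₀]
      · simp; ring
      · intro j _ hj; simp [hj]
      · intro h; exact absurd (Finset.mem_univ _) h
      · intro i _ hi
        apply Finset.sum_eq_zero
        intro j _
        simp [hi]
      · intro h; exact absurd (Finset.mem_univ _) h
    have e2 : ∑ i, b i * (EuclideanSpace.single i₀ t : EuclideanSpace ℝ (Fin n)) i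
        = b i₀ * t := by
      rw [Finset.sum_eq_single i₀]
      · simp
      · intro i _ hi; simp [hi]
      · intro h; exact absurd (Finset.mem_univ _) h
    rw [e1, e2]
    ring
  have a0 := h1 0
  have a1 := h1 1
  have a2 := h1 (-1)
  have a3 := h1 2
  norm_num at a0 a1 a2 a3
  have s2 : Real.sqrt 2 ^ 2 = 2 := Real.sq_sqrt (by norm_num)
  have s5 : Real.sqrt 5 ^ 2 = 5 := Real.sq_sqrt (by norm_num)
  have p2 : 0 ≤ Real.sqrt 2 := Real.sqrt_nonneg _
  have p5 : 0 ≤ Real.sqrt 5 := Real.sqrt_nonneg _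
  have hc : c = 1 := by linarith
  have hb : b i₀ = 0 := by linarith
  have hA : A i₀ i₀ = 2 * (Real.sqrt 2 - 1) := by linarith
  have h5 : Real.sqrt 5 = 4 * Real.sqrt 2 - 3 := by
    rw [a3, hA, hb, hc]; ring
  rw [h5] at s5
  nlinarith

/-- The main theorem. -/
theorem main (n : ℕ) (hn : 10 ≤ n) : ∃ u : EuclideanSpace ℝ (Fin n) → ℝ,
    ContDiff ℝ ∞ u ∧ (∀ x, (hess u x).PosDef) ∧ AffineMaximal u ∧
    ¬ ∃ (A : Matrix (Fin n) (Fin n) ℝ) (b : Fin n → ℝ) (c : ℝ),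
      ∀ x, u x = (1 / 2) * ∑ i, ∑ j, A i j * x i * x j + ∑ i, b i * x i + c := by
  obtain ⟨m, rfl⟩ : ∃ m, n = m + 2 := ⟨n - 2, by omega⟩
  obtain ⟨R, R1, R2, g, g1, g2, hR0, hs, hpos, hd0, hd1, he0, he1, heq, hode⟩ :=
    exists_radial (m + 1) (by omega)
  have h : Rad R R1 R2 := ⟨hpos, hd0, hd1⟩
  have hw : Wt R R1 R2 g g1 g2 m := by
    refine ⟨he0, he1, ?_, ?_⟩
    · intro t ht
      rw [heq t ht]
      have e1 : (-((((m + 1 : ℕ) : ℝ) + 2) / (((m + 1 : ℕ) : ℝ) + 3)))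
          = (-(((m : ℝ) + 3) / ((m : ℝ) + 4))) := by push_cast; ring
      rw [e1]
      rfl
    · intro t ht
      have := hode t ht
      push_cast at this
      rw [← this]
      ring
  let i₀ : Fin (m + 2) := 0
  exact ⟨uu i₀ R, uu_contDiff h hs i₀, uu_posDef h i₀, affineMaximal_uu h hw i₀ rfl,
    uu_not_quadratic hR0 i₀⟩

end Vale.Agent.P252
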