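import Vale.Agent.P252.Radial

/-! The radial profile `R` with the bounds needed for affine completeness. -/

namespace Vale.Agent.P252

open Set MeasureTheory intervalIntegral Filter Topology
open scoped ContDiff

/-- The radial data with additional bounds, for the construction in `ℝ^{K+1}`. -/
theorem exists_radial2 (K : ℕ) (hK : 9 ≤ K) : ∃ R R1 R2 g g1 g2 : ℝ → ℝ,
    (∃ ρ : ℝ, 0 < ρ ∧ ∀ t, 0 ≤ t → ρ ≤ R1 t ∧ R1 t ≤ R t ∧ 2 * t * R2 t ≤ 5 / 2 * R1 t) ∧
    R 0 = 1 ∧ ContDiffOn ℝ ∞ R (Ici 0) ∧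
    (∀ t, 0 ≤ t → 0 < R t ∧ 0 < R1 t ∧ 0 ≤ R2 t) ∧
    (∀ t, 0 ≤ t → HasDerivWithinAt R (R1 t) (Ici 0) t) ∧
    (∀ t, 0 ≤ t → HasDerivWithinAt R1 (R2 t) (Ici 0) t) ∧
    (∀ t, 0 ≤ t → HasDerivWithinAt g (g1 t) (Ici 0) t) ∧
    (∀ t, 0 ≤ t → HasDerivWithinAt g1 (g2 t) (Ici 0) t) ∧
    (∀ t, 0 ≤ t → g t = (R t ^ (K + 2) * R1 t ^ (K - 1) * (R1 t + 2 * t * R2 t)) ^
      (-(((K : ℝ) + 2) / ((K : ℝ) + 3)))) ∧
    (∀ t, 0 ≤ t → 2 * t * g2 t + g1 t + (((K : ℝ) - 1) * ((R1 t + 2 * t * R2 t) / R1 t)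
      + 4 * ((K : ℝ) + 2) * t * (R1 t / R t)) * g1 t
      + ((K : ℝ) + 1) * ((K : ℝ) + 2) *
        ((R t * (R1 t + 2 * t * R2 t) + 2 * t * R1 t ^ 2) / R t ^ 2) * g t = 0) := by
  have hk : (9:ℝ) ≤ (K:ℝ) := by exact_mod_cast hK
  obtain ⟨q, v, q', hqb, hv, hqs, hvs, hvd, hqd, heq⟩ := exists_profile hk
  set k : ℝ := (K : ℝ) with hkdef
  have hk0 : 0 < k := by linarith
  have hv0 : ∀ t, 0 ≤ t → 0 < v t := fun t ht => by have := hv t ht; linarith
  -- the primitive of 1/v
  set w : ℝ → ℝ := fun s => 1 / v (max s 0) with hw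
  have hwc : Continuous w := by
    have h1 : Continuous (fun s => v (max s 0)) :=
      hvs.continuousOn.comp_continuous (continuous_id.max continuous_const) (fun x => by simp)
    exact continuous_const.div h1 (fun s => (hv0 _ (le_max_right _ _)).ne')
  set I : ℝ → ℝ := fun t => ∫ s in (0:ℝ)..t, w s with hI
  have hId : ∀ t, HasDerivAt I (w t) t := fun t =>
    intervalIntegral.integral_hasDerivAt_right (hwc.intervalIntegrable 0 t)
      (hwc.stronglyMeasurableAtFilter _ _) hwc.continuousAt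
  have hwv : ∀ t, 0 ≤ t → w t = 1 / v t := fun t ht => by rw [hw]; simp only; rw [max_eq_left ht]
  have hu := uniqueDiffOn_Ici (0:ℝ)
  have hIs : ContDiffOn ℝ ∞ I (Ici 0) := by
    rw [contDiffOn_infty_iff_derivWithin hu]
    refine ⟨fun t _ => (hId t).differentiableAt.differentiableWithinAt, ?_⟩
    have h1 : ContDiffOn ℝ ∞ (fun t => 1 / v t) (Ici 0) :=
      contDiffOn_const.div hvs (fun t ht => (hv0 t ht).ne')
    refine h1.congr (fun t ht => ?_)
    rw [(hId t).hasDerivWithinAt.derivWithin (hu t ht), hwv t ht]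
  set R : ℝ → ℝ := fun t => Real.exp (I t) with hR
  set R1 : ℝ → ℝ := fun t => R t / v t with hR1
  set R2 : ℝ → ℝ := fun t => q t * R t / v t ^ 2 with hR2
  have hRpos : ∀ t, 0 < R t := fun t => Real.exp_pos _
  have hRd : ∀ t, 0 ≤ t → HasDerivWithinAt R (R1 t) (Ici 0) t := by
    intro t ht
    have h1 := ((hId t).exp).hasDerivWithinAt (s := Ici 0)
    have h2 : Real.exp (I t) * w t = R1 t := by
      rw [hwv t ht]; simp only [hR1, hR]; ring
    rw [← h2]; exact h1
  have hR1d : ∀ t, 0 ≤ t → HasDerivWithinAt R1 (R2 t) (Ici 0) t := by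
    intro t ht
    have hvt := (hv0 t ht).ne'
    have h1 := (hRd t ht).div (hvd t ht) hvt
    have h2 : (R1 t * v t - R t * (1 - q t)) / v t ^ 2 = R2 t := by
      simp only [hR1, hR2]; field_simp; ring
    rw [← h2]; exact h1
  -- the function D
  set D : ℝ → ℝ := fun t => R t ^ (2 * K + 2) * (v t + 2 * t * q t) / v t ^ (K + 1) with hD
  have hDpos : ∀ t, 0 ≤ t → 0 < D t := by
    intro t ht
    have h1 := hRpos t
    have h2 := hv0 t ht
    have h3 := (hqb t ht).1
    simp only [hD]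
    positivity
  set h : ℝ → ℝ := fun t =>
    (k + 2) * ((k + 1) * v t + 4 * t * (1 + q t)) / (v t * (k * v t + 4 * t)) with hh
  set hd : ℝ → ℝ := fun t => (k + 2) *
    ((((k + 1) * (1 - q t) + 4 * ((1 + q t) + t * q' t)) * (v t * (k * v t + 4 * t))
      - ((k + 1) * v t + 4 * t * (1 + q t)) *
        ((1 - q t) * (k * v t + 4 * t) + v t * (k * (1 - q t) + 4))) /
      (v t * (k * v t + 4 * t)) ^ 2) with hhd
  have hhderiv : ∀ t, 0 ≤ t → HasDerivWithinAt h (hd t) (Ici 0) t := by
    intro t ht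
    have hvt := hv0 t ht
    have hne : v t * (k * v t + 4 * t) ≠ 0 := by positivity
    have hid : HasDerivWithinAt (fun t : ℝ => t) 1 (Ici 0) t := hasDerivWithinAt_id _ _
    have n1 : HasDerivWithinAt (fun t => (k + 1) * v t + 4 * t * (1 + q t))
        ((k + 1) * (1 - q t) + 4 * ((1 + q t) + t * q' t)) (Ici 0) t := by
      have a1 := (hvd t ht).const_mul (k + 1)
      have a2 := (hid.const_mul 4).mul ((hqd t ht).const_add 1)
      have a3 := a1.add a2
      have e : (k + 1) * (1 - q t) + 4 * ((1 + q t) + t * q' t)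
          = (k + 1) * (1 - q t) + (4 * 1 * (1 + q t) + 4 * t * q' t) := by ring
      rw [e]; exact a3
    have n2 : HasDerivWithinAt (fun t => v t * (k * v t + 4 * t))
        ((1 - q t) * (k * v t + 4 * t) + v t * (k * (1 - q t) + 4)) (Ici 0) t := by
      have a1 := ((hvd t ht).const_mul k).add (hid.const_mul 4)
      have a2 := (hvd t ht).mul a1
      have e : (1 - q t) * (k * v t + 4 * t) + v t * (k * (1 - q t) + 4)
          = (1 - q t) * (k * v t + 4 * t) + v t * (k * (1 - q t) + 4 * 1) := by ring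
      rw [e]; exact a2
    have n3 := (n1.div n2 hne).const_mul (k + 2)
    refine n3.congr (fun x hx => ?_) ?_
    · simp only [hh, Pi.div_apply]; rw [mul_div_assoc]
    · simp only [hh, Pi.div_apply]; rw [mul_div_assoc]
  have hDd : ∀ t, 0 ≤ t → HasDerivWithinAt D ((k + 3) / (k + 2) * h t * D t) (Ici 0) t := by
    intro t ht
    have hvt := hv0 t ht
    have hid : HasDerivWithinAt (fun t : ℝ => t) 1 (Ici 0) t := hasDerivWithinAt_id _ _
    have a1 := (hRd t ht).pow (2 * K + 2)
    have a2 := (hvd t ht).add ((hid.const_mul 2).mul (hqd t ht))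
    have a3 := (hvd t ht).pow (K + 1)
    have a4 := (a1.mul a2).div a3 (pow_ne_zero _ hvt.ne')
    have key := Dp_identity hk ht (hv t ht) (hqb t ht).1 (heq t ht)
    have hRt := hRpos t
    have hqt := (hqb t ht).1
    have e1 : (k + 3) / (k + 2) * h t = (2 * k + 2) / v t
        + ((1 - q t) + 2 * (q t + t * q' t)) / (v t + 2 * t * q t)
        - (k + 1) * (1 - q t) / v t := by
      rw [key]; simp only [hh]
      have : k * v t + 4 * t ≠ 0 := by positivity
      field_simp
    rw [e1]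
    have e2 : ((2 * k + 2) / v t + ((1 - q t) + 2 * (q t + t * q' t)) / (v t + 2 * t * q t)
        - (k + 1) * (1 - q t) / v t) * D t =
        (((((2 * K + 2 : ℕ) : ℝ) * R t ^ (2 * K + 2 - 1) * R1 t) * (v t + 2 * t * q t)
          + R t ^ (2 * K + 2) * ((1 - q t) + (2 * 1 * q t + 2 * t * q' t))) * v t ^ (K + 1)
          - (R t ^ (2 * K + 2) * (v t + 2 * t * q t)) *
            (((K + 1 : ℕ) : ℝ) * v t ^ (K + 1 - 1) * (1 - q t))) / (v t ^ (K + 1)) ^ 2 := by
      simp only [hD, hR1]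
      have : v t + 2 * t * q t ≠ 0 := by positivity
      rw [show 2 * K + 2 - 1 = 2 * K + 1 by omega, show K + 1 - 1 = K by omega,
        show 2 * K + 2 = (2 * K + 1) + 1 by omega, pow_succ (R t) (2 * K + 1),
        pow_succ (v t) K]
      push_cast
      rw [← hkdef]
      field_simp
      ring
    rw [e2]
    exact a4
  set θ : ℝ := (k + 2) / (k + 3) with hθ
  set g : ℝ → ℝ := fun t => D t ^ (-θ) with hg
  have hgd : ∀ t, 0 ≤ t → HasDerivWithinAt g (-h t * g t) (Ici 0) t := by
    intro t ht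
    have h1 : HasDerivAt (fun x : ℝ => x ^ (-θ)) (-θ * D t ^ (-θ - 1)) (D t) :=
      Real.hasDerivAt_rpow_const (Or.inl (hDpos t ht).ne')
    have h2 := h1.comp_hasDerivWithinAt t (hDd t ht)
    have h3 : -θ * D t ^ (-θ - 1) * ((k + 3) / (k + 2) * h t * D t) = -h t * g t := by
      have e1 : D t ^ (-θ - 1) = D t ^ (-θ) * (D t)⁻¹ := by
        rw [Real.rpow_sub (hDpos t ht), Real.rpow_one]; rfl
      have e2 := (hDpos t ht).ne'
      have e3 : k + 3 ≠ 0 := by positivity
      have e4 : k + 2 ≠ 0 := by positivity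
      rw [e1]; simp only [hg, hθ]
      field_simp
    rw [h3] at h2
    exact h2
  refine ⟨R, R1, R2, g, fun t => -h t * g t, fun t => (h t ^ 2 - hd t) * g t, ?_, ?_, ?_, ?_, hRd,
    hR1d, hgd, ?_, ?_, ?_⟩
  · have hR1m : MonotoneOn R1 (Ici 0) := by
      apply monotoneOn_of_hasDerivWithinAt_nonneg (f' := R2) (convex_Ici 0)
      · intro t ht
        exact (hR1d t ht).continuousWithinAt
      · intro t ht
        rw [interior_Ici] at ht ⊢
        exact (hR1d t (le_of_lt ht)).mono Ioi_subset_Ici_self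
      · intro t ht
        rw [interior_Ici] at ht
        have ht0 : 0 ≤ t := le_of_lt ht
        have a1 := hRpos t
        have a2 := hv0 t ht0
        have a3 := (hqb t ht0).1
        simp only [hR2]
        positivity
    have hvm : MonotoneOn (fun t => v t - 4 / 9 * t) (Ici 0) := by
      apply monotoneOn_of_hasDerivWithinAt_nonneg (f' := fun t => (1 - q t) - 4 / 9 * 1)
        (convex_Ici 0)
      · intro t ht
        exact ((hvd t ht).sub ((hasDerivWithinAt_id t (Ici 0)).const_mul (4 / 9))).continuousWithinAt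
      · intro t ht
        rw [interior_Ici] at ht ⊢
        exact ((hvd t (le_of_lt ht)).sub
          ((hasDerivWithinAt_id t (Ici 0)).const_mul (4 / 9))).mono Ioi_subset_Ici_self
      · intro t ht
        rw [interior_Ici] at ht
        have := (hqb t (le_of_lt ht)).2
        linarith
    have hv1 : ∀ t, 0 ≤ t → 1 + 4 / 9 * t ≤ v t := by
      intro t ht
      have a1 := hvm (Set.mem_Ici.2 (le_refl (0:ℝ))) (show t ∈ Ici (0:ℝ) from ht) ht
      have a2 := hv 0 le_rfl
      simp only at a1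
      linarith
    have hρ : 0 < R1 0 := by
      have a1 := hRpos 0
      have a2 := hv0 0 le_rfl
      simp only [hR1]
      positivity
    refine ⟨R1 0, hρ, fun t ht => ⟨hR1m (Set.mem_Ici.2 (le_refl (0:ℝ)))
      (show t ∈ Ici (0:ℝ) from ht) ht, ?_, ?_⟩⟩
    · have a1 := hRpos t
      have a2 := hv t ht
      simp only [hR1]
      exact div_le_self a1.le a2
    · have a1 := hRpos t
      have a2 := hv1 t ht
      have a3 := hv0 t ht
      obtain ⟨a4, a5⟩ := hqb t ht
      have e1 : 2 * t * R2 t = (2 * t * q t / v t) * R1 t := by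
        simp only [hR1, hR2]; field_simp
      rw [e1]
      have a6 : 0 ≤ R1 t := by simp only [hR1]; positivity
      apply mul_le_mul_of_nonneg_right _ a6
      rw [div_le_iff₀ a3]
      nlinarith
  · simp [hR, hI]
  · exact hIs.exp
  · intro t ht
    have h1 := hRpos t
    have h2 := hv0 t ht
    have h3 := (hqb t ht).1
    refine ⟨h1, ?_, ?_⟩
    · simp only [hR1]; positivity
    · simp only [hR2]; positivity
  · intro t ht
    have h1 := (hhderiv t ht).neg.mul (hgd t ht)
    have h2 : -hd t * g t + -h t * (-h t * g t) = (h t ^ 2 - hd t) * g t := by ring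
    change HasDerivWithinAt _ ((h t ^ 2 - hd t) * g t) _ _
    rw [← h2]; exact h1
  · intro t ht
    have hvt := hv0 t ht
    have hRt := hRpos t
    have e1 : R t ^ (K + 2) * R1 t ^ (K - 1) * (R1 t + 2 * t * R2 t) = D t := by
      simp only [hD, hR1, hR2]
      obtain ⟨j, rfl⟩ : ∃ j, K = j + 1 := ⟨K - 1, by omega⟩
      rw [show j + 1 - 1 = j by omega]
      rw [div_pow]
      field_simp
      ring
    rw [e1]
  · intro t ht
    have hvt := hv0 t ht
    have hRt := hRpos t
    have key := ode_identity hk ht (hv t ht) (heq t ht) (h := h t) (hd := hd t) rfl rfl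
    have e1 : (R1 t + 2 * t * R2 t) / R1 t = 1 + 2 * t * q t / v t := by
      simp only [hR1, hR2]; field_simp
    have e2 : R1 t / R t = 1 / v t := by
      simp only [hR1]; field_simp
    have e3 : (R t * (R1 t + 2 * t * R2 t) + 2 * t * R1 t ^ 2) / R t ^ 2
        = 2 * t / v t ^ 2 + 1 / v t + 2 * t * q t / v t ^ 2 := by
      simp only [hR1, hR2]; field_simp; ring
    rw [e1, e2, e3]
    linear_combination g t * key

end Vale.Agent.P252
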