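import Vale.Agent.P252.RComplete
import Vale.Agent.P252.Radial2
import Vale.Agent.P252.Final

/-! Euclidean and affine completeness of the solution. -/

namespace Vale.Agent.P252

open Set Finset Filter Topology
open scoped ContDiff

variable {n : ℕ}

theorem pd_contDiff {f : EuclideanSpace ℝ (Fin n) → ℝ} (hf : ContDiff ℝ ∞ f) (i : Fin n) :
    ContDiff ℝ ∞ (pd i f) := by
  unfold pd
  exact (hf.fderiv_right (m := ∞) (by simp)).clm_apply contDiff_const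

theorem tendsto_coord {s : ℕ → EuclideanSpace ℝ (Fin n)} {l : Fin n → ℝ}
    (h : ∀ a, Tendsto (fun k => s k a) atTop (𝓝 (l a))) : ∃ x, Tendsto s atTop (𝓝 x) := by
  refine ⟨WithLp.toLp 2 l, ?_⟩
  have h1 : Tendsto (fun k => (fun a => s k a)) atTop (𝓝 l) := tendsto_pi_nhds.2 h
  exact ((PiLp.continuous_toLp 2 (fun _ : Fin n => ℝ)).tendsto l).comp h1

theorem coord_contDiff (a : Fin n) {m : WithTop ℕ∞} :
    ContDiff ℝ m (fun x : EuclideanSpace ℝ (Fin n) => x a) :=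
  (EuclideanSpace.proj a : EuclideanSpace ℝ (Fin n) →L[ℝ] ℝ).contDiff

theorem coord_fderiv (a : Fin n) (x v : EuclideanSpace ℝ (Fin n)) :
    fderiv ℝ (fun x : EuclideanSpace ℝ (Fin n) => x a) x v = v a := by
  have h : HasFDerivAt (fun x : EuclideanSpace ℝ (Fin n) => x a)
      (EuclideanSpace.proj a : EuclideanSpace ℝ (Fin n) →L[ℝ] ℝ) x :=
    (EuclideanSpace.proj a : EuclideanSpace ℝ (Fin n) →L[ℝ] ℝ).hasFDerivAt
  rw [h.fderiv]
  rfl

/-- every smooth entire graph is Euclidean complete -/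
theorem euclComplete {u : EuclideanSpace ℝ (Fin n) → ℝ} (hu : ContDiff ℝ ∞ u) :
    RiemComplete (euclMetric u) univ := by
  apply riemComplete_of (ι := Fin n) (f := fun a x => x a) (C := 1)
  · intro i j
    simp only [euclMetric, Matrix.of_apply]
    exact continuous_const.add ((pd_contDiff hu i).continuous.mul (pd_contDiff hu j).continuous)
  · exact fun a => coord_contDiff a
  · exact one_pos
  · intro a x v
    rw [coord_fderiv]
    have h1 : qf (euclMetric u x) v = ∑ i, v i ^ 2 + (∑ i, pd i u x * v i) ^ 2 := by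
      unfold qf
      simp only [euclMetric, Matrix.of_apply]
      have e1 : ∀ i, ∑ j, ((if i = j then (1:ℝ) else 0) + pd i u x * pd j u x) * v i * v j
          = v i ^ 2 + (pd i u x * v i) * ∑ j, pd j u x * v j := by
        intro i
        rw [Finset.mul_sum]
        have e2 : v i ^ 2 = ∑ j, (if i = j then v i * v j else 0) := by
          rw [Finset.sum_ite_eq]
          simp [sq]
        rw [e2, ← Finset.sum_add_distrib]
        refine Finset.sum_congr rfl fun j _ => ?_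
        split_ifs <;> ring
      simp only [e1]
      rw [Finset.sum_add_distrib, ← Finset.sum_mul, sq]
    rw [h1, one_mul]
    have h2 : v a ^ 2 ≤ ∑ i, v i ^ 2 :=
      Finset.single_le_sum (f := fun i => v i ^ 2) (fun i _ => sq_nonneg _) (Finset.mem_univ a)
    nlinarith [sq_nonneg (∑ i, pd i u x * v i)]
  · intro s hs
    choose l hl using hs
    exact tendsto_coord hl

theorem HasGrad.fderiv_apply {f : EuclideanSpace ℝ (Fin n) → ℝ} {F : Fin n → ℝ}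
    {x : EuclideanSpace ℝ (Fin n)} (h : HasGrad f F x) (v : EuclideanSpace ℝ (Fin n)) :
    fderiv ℝ f x v = ∑ i, v i * F i := by
  obtain ⟨L, hL, hF⟩ := h
  rw [hL.fderiv]
  have hv : v = ∑ i, v i • EuclideanSpace.single i (1:ℝ) := by
    ext j
    simp [Finset.sum_apply, Pi.single_apply]
  conv_lhs => rw [hv]
  rw [map_sum]
  refine Finset.sum_congr rfl fun i _ => ?_
  rw [map_smul, hF, smul_eq_mul]

variable {R R1 R2 : ℝ → ℝ}

/-- the quadratic form of the Hessian of the solution -/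
theorem qf_hess (h : Rad R R1 R2) (i₀ : Fin n) (x : EuclideanSpace ℝ (Fin n))
    (v : EuclideanSpace ℝ (Fin n)) :
    qf (hess (uu i₀ R) x) v =
      (R (SS i₀ x) * R1 (SS i₀ x) / uu i₀ R x) * ∑ i, cc i₀ i * (v i * v i)
      + (R (SS i₀ x) * R2 (SS i₀ x) / uu i₀ R x) * (∑ i, zz i₀ x i * v i) ^ 2
      + (R1 (SS i₀ x) * x i₀ * (∑ i, zz i₀ x i * v i) - R (SS i₀ x) * v i₀) ^ 2
        / uu i₀ R x ^ 3 := by
  have hU := uu_pos h i₀ x
  obtain ⟨hR, hR1, hR2⟩ := h.pos _ (SS_nonneg i₀ x)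
  rw [uu_hess h i₀ x]
  set U := uu i₀ R x
  set S := SS i₀ x
  set y := x i₀
  set z := zz i₀ x with hz
  have a0 : ∀ i, ∑ j, MM i₀ z (R S * R1 S / U)
        ((R1 S ^ 2 * y ^ 2 + R S * R2 S * U ^ 2) / U ^ 3)
        (-(R S * R1 S * y) / U ^ 3) (R S ^ 2 / U ^ 3) i j * v i * v j
        = (R S * R1 S / U) * (cc i₀ i * (v i * v i))
          + ((R1 S ^ 2 * y ^ 2 + R S * R2 S * U ^ 2) / U ^ 3) * (z i * v i) * (∑ j, z j * v j)
          + (-(R S * R1 S * y) / U ^ 3) * (z i * v i) * (∑ j, ee i₀ j * v j)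
          + (-(R S * R1 S * y) / U ^ 3) * (ee i₀ i * v i) * (∑ j, z j * v j)
          + (R S ^ 2 / U ^ 3) * (ee i₀ i * v i) * (∑ j, ee i₀ j * v j) := by
    intro i
    have b1 : cc i₀ i * (v i * v i) = ∑ j, (if i = j then cc i₀ i else 0) * v i * v j := by
      simp only [ite_mul, zero_mul, Finset.sum_ite_eq, Finset.mem_univ, if_true]
      ring
    rw [b1]
    simp only [Finset.mul_sum, ← Finset.sum_add_distrib]
    refine Finset.sum_congr rfl fun j _ => ?_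
    simp only [MM, Matrix.of_apply]
    ring
  unfold qf
  simp only [a0]
  have a2 : ∑ j, ee i₀ j * v j = v i₀ := sum_ee_mul i₀ v
  rw [a2]
  set τ := ∑ i, z i * v i with hτ
  simp only [Finset.sum_add_distrib, ← Finset.mul_sum, ← Finset.sum_mul]
  rw [a2, ← hτ]
  field_simp
  ring

/-- the ratio `y / R` -/
noncomputable def ff (i₀ : Fin n) (R : ℝ → ℝ) (x : EuclideanSpace ℝ (Fin n)) : ℝ :=
  x i₀ * (R (SS i₀ x))⁻¹

theorem ff_grad (h : Rad R R1 R2) (i₀ : Fin n) (x : EuclideanSpace ℝ (Fin n)) :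
    HasGrad (ff i₀ R) (fun i => (ee i₀ i * R (SS i₀ x) - x i₀ * (R1 (SS i₀ x) * zz i₀ x i))
      / R (SS i₀ x) ^ 2) x := by
  have hR := (h.pos _ (SS_nonneg i₀ x)).1
  have h1 : HasGrad (fun x => (R (SS i₀ x))⁻¹)
      (fun i => -(R (SS i₀ x) ^ 2)⁻¹ * (R1 (SS i₀ x) * zz i₀ x i)) x :=
    HasGrad.comp (hasDerivAt_inv hR.ne') (R_grad h i₀ x)
  have h2 := (y_grad i₀ x).mul h1
  refine HasGrad.congr h2 fun i => ?_
  field_simp
  ring

theorem th_grad (h : Rad R R1 R2) (i₀ : Fin n) (x : EuclideanSpace ℝ (Fin n)) :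
    HasGrad (fun x => Real.arsinh (ff i₀ R x))
      (fun i => (Real.sqrt (1 + ff i₀ R x ^ 2))⁻¹ *
        ((ee i₀ i * R (SS i₀ x) - x i₀ * (R1 (SS i₀ x) * zz i₀ x i)) / R (SS i₀ x) ^ 2)) x :=
  HasGrad.comp (Real.hasDerivAt_arsinh _) (ff_grad h i₀ x)

theorem th_fderiv_sq (h : Rad R R1 R2) (i₀ : Fin n) (x v : EuclideanSpace ℝ (Fin n)) :
    (fderiv ℝ (fun x => Real.arsinh (ff i₀ R x)) x v) ^ 2 =
      (R1 (SS i₀ x) * x i₀ * (∑ i, zz i₀ x i * v i) - R (SS i₀ x) * v i₀) ^ 2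
        / (R (SS i₀ x) ^ 2 * uu i₀ R x ^ 2) := by
  have hR := (h.pos _ (SS_nonneg i₀ x)).1
  rw [(th_grad h i₀ x).fderiv_apply v]
  have e1 : ∑ i, v i * ((Real.sqrt (1 + ff i₀ R x ^ 2))⁻¹ *
        ((ee i₀ i * R (SS i₀ x) - x i₀ * (R1 (SS i₀ x) * zz i₀ x i)) / R (SS i₀ x) ^ 2))
      = (Real.sqrt (1 + ff i₀ R x ^ 2))⁻¹ * ((R (SS i₀ x) * (∑ i, ee i₀ i * v i)
        - x i₀ * R1 (SS i₀ x) * (∑ i, zz i₀ x i * v i)) / R (SS i₀ x) ^ 2) := by
    rw [Finset.mul_sum, Finset.mul_sum, ← Finset.sum_sub_distrib, Finset.sum_div, Finset.mul_sum]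
    refine Finset.sum_congr rfl fun i _ => ?_
    ring
  rw [e1, sum_ee_mul i₀ v, mul_pow, inv_pow, Real.sq_sqrt (by positivity)]
  have hsq := uu_sq h i₀ x
  have e2 : 1 + ff i₀ R x ^ 2 = uu i₀ R x ^ 2 / R (SS i₀ x) ^ 2 := by
    rw [hsq]; unfold ff; field_simp
  have hU := uu_pos h i₀ x
  rw [e2]
  field_simp
  ring

/-- the bounds on the profile -/
structure Bd (R R1 R2 : ℝ → ℝ) (ρ : ℝ) : Prop where
  pos : 0 < ρ
  bd : ∀ t, 0 ≤ t → ρ ≤ R1 t ∧ R1 t ≤ R t ∧ 2 * t * R2 t ≤ 5 / 2 * R1 t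

/-- the constant -/
noncomputable def CC (ρ : ℝ) : ℝ := 1 + 7 / (2 * ρ ^ 4)

theorem CC_ge {ρ : ℝ} (hρ : 0 < ρ) : 1 ≤ CC ρ := by
  unfold CC
  have : 0 ≤ 7 / (2 * ρ ^ 4) := by positivity
  linarith

theorem D_bound {m : ℕ} {r r1 r2 S ρ : ℝ} (hρ : 0 < ρ) (h1 : ρ ≤ r1) (h2 : r1 ≤ r)
    (hS : 0 ≤ S) (hr2 : 0 ≤ r2) (h3 : 2 * S * r2 ≤ 5 / 2 * r1) :
    (r ^ (m + 3) * r1 ^ m * (r1 + 2 * S * r2)) ^ (1 / ((m : ℝ) + 4)) ≤ CC ρ * (r * r1) := by
  have hr1 : 0 < r1 := hρ.trans_le h1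
  have hr : 0 < r := hr1.trans_le h2
  have hC := CC_ge hρ
  have hC0 : 0 < CC ρ := by linarith
  have k1 : r ^ (m + 3) * r1 ^ m * (r1 + 2 * S * r2) ≤ (CC ρ * (r * r1)) ^ (m + 4) := by
    have b1 : r1 + 2 * S * r2 ≤ 7 / 2 * r1 := by linarith
    have b2 : r ^ (m + 3) * r1 ^ m * (r1 + 2 * S * r2) ≤ r ^ (m + 3) * r1 ^ m * (7 / 2 * r1) :=
      mul_le_mul_of_nonneg_left b1 (by positivity)
    have b3 : ρ ^ 4 ≤ r * r1 ^ 3 := by
      calc ρ ^ 4 = ρ * ρ ^ 3 := by ring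
        _ ≤ r * r1 ^ 3 := mul_le_mul (h1.trans h2) (pow_le_pow_left₀ hρ.le h1 3)
            (by positivity) hr.le
    have b4 : 7 / 2 ≤ CC ρ * (r * r1 ^ 3) := by
      have : 7 / 2 ≤ (7 / (2 * ρ ^ 4)) * (r * r1 ^ 3) := by
        rw [div_mul_eq_mul_div, le_div_iff₀ (by positivity)]
        nlinarith
      unfold CC
      have h5 : 0 ≤ r * r1 ^ 3 := by positivity
      nlinarith
    have b5 : CC ρ ≤ CC ρ ^ (m + 4) := le_self_pow₀ hC (by omega)
    calc r ^ (m + 3) * r1 ^ m * (r1 + 2 * S * r2) ≤ r ^ (m + 3) * r1 ^ m * (7 / 2 * r1) := b2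
      _ = (r ^ (m + 3) * r1 ^ (m + 1)) * (7 / 2) := by ring
      _ ≤ (r ^ (m + 3) * r1 ^ (m + 1)) * (CC ρ * (r * r1 ^ 3)) :=
          mul_le_mul_of_nonneg_left b4 (by positivity)
      _ = CC ρ * (r * r1) ^ (m + 4) := by ring
      _ ≤ CC ρ ^ (m + 4) * (r * r1) ^ (m + 4) :=
          mul_le_mul_of_nonneg_right b5 (by positivity)
      _ = (CC ρ * (r * r1)) ^ (m + 4) := by rw [← mul_pow]
  have k2 := Real.rpow_le_rpow (by positivity) k1 (z := 1 / ((m : ℝ) + 4)) (by positivity)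
  refine k2.trans (le_of_eq ?_)
  have e : 1 / ((m : ℝ) + 4) = (((m + 4 : ℕ) : ℝ))⁻¹ := by push_cast; rw [one_div]
  rw [e, Real.pow_rpow_inv_natCast (by positivity) (by omega)]

theorem det_rpow (h : Rad R R1 R2) (i₀ : Fin n) {m : ℕ} (hm : n = m + 2)
    (x : EuclideanSpace ℝ (Fin n)) :
    (hess (uu i₀ R) x).det ^ (-(1 / ((n : ℝ) + 2))) = uu i₀ R x *
      ((R (SS i₀ x) ^ (m + 3) * R1 (SS i₀ x) ^ m *
        (R1 (SS i₀ x) + 2 * SS i₀ x * R2 (SS i₀ x))) ^ (1 / ((m : ℝ) + 4)))⁻¹ := by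
  have hU := uu_pos h i₀ x
  have hS := SS_nonneg i₀ x
  obtain ⟨hR, hR1, hR2⟩ := h.pos _ hS
  rw [uu_det h i₀ hm x]
  set U := uu i₀ R x
  set S := SS i₀ x
  set D := R S ^ (m + 3) * R1 S ^ m * (R1 S + 2 * S * R2 S) with hD
  have hD0 : 0 < D := by positivity
  have e1 : -(1 / ((n : ℝ) + 2)) = -(1 / ((m : ℝ) + 4)) := by
    rw [hm]; push_cast; ring
  have e : 1 / ((m : ℝ) + 4) = (((m + 4 : ℕ) : ℝ))⁻¹ := by push_cast; rw [one_div]
  rw [e1, Real.rpow_neg (by positivity), Real.div_rpow hD0.le (by positivity), inv_div]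
  rw [show (U ^ (m + 4)) ^ (1 / ((m : ℝ) + 4)) = U by
    rw [e, Real.pow_rpow_inv_natCast hU.le (by omega)]]
  rw [div_eq_mul_inv]

theorem aff_bound (h : Rad R R1 R2) {ρ : ℝ} (hB : Bd R R1 R2 ρ) (i₀ : Fin n) {m : ℕ}
    (hm : n = m + 2) (x v : EuclideanSpace ℝ (Fin n)) :
    (∑ i, cc i₀ i * (v i * v i)) + (fderiv ℝ (fun x => Real.arsinh (ff i₀ R x)) x v) ^ 2
      ≤ CC ρ * qf (affMetric (uu i₀ R) x) v := by
  have hU := uu_pos h i₀ x
  have hS := SS_nonneg i₀ x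
  obtain ⟨hR, hR1, hR2⟩ := h.pos _ hS
  obtain ⟨c1, c2, c3⟩ := hB.bd _ hS
  have e0 : qf (affMetric (uu i₀ R) x) v = (hess (uu i₀ R) x).det ^ (-(1 / ((n : ℝ) + 2))) *
      qf (hess (uu i₀ R) x) v := by
    unfold qf affMetric
    rw [Finset.mul_sum]
    refine Finset.sum_congr rfl fun i _ => ?_
    rw [Finset.mul_sum]
    refine Finset.sum_congr rfl fun j _ => ?_
    rw [Matrix.of_apply]
    ring
  rw [e0, det_rpow h i₀ hm x, qf_hess h i₀ x v, th_fderiv_sq h i₀ x v]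
  have hp := D_bound (m := m) hB.pos c1 c2 hS hR2 c3
  set U := uu i₀ R x
  set S := SS i₀ x
  set p := (R S ^ (m + 3) * R1 S ^ m * (R1 S + 2 * S * R2 S)) ^ (1 / ((m : ℝ) + 4)) with hpdef
  have hp0 : 0 < p := by positivity
  set A := ∑ i, cc i₀ i * (v i * v i) with hA
  have hA0 : 0 ≤ A :=
    Finset.sum_nonneg (fun i _ => mul_nonneg (cc_nonneg _ _) (mul_self_nonneg _))
  set T := R1 S * x i₀ * (∑ i, zz i₀ x i * v i) - R S * v i₀ with hT
  set B := (∑ i, zz i₀ x i * v i) ^ 2 with hBdef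
  have hB0 : 0 ≤ B := sq_nonneg _
  have hC0 : 0 < CC ρ := by have := CC_ge hB.pos; linarith
  have e1 : CC ρ * (U * p⁻¹ * (R S * R1 S / U * A + R S * R2 S / U * B + T ^ 2 / U ^ 3))
      = (CC ρ * (R S * R1 S) / p) * A + (CC ρ * (R S * R2 S) / p) * B
        + (CC ρ / p) * (T ^ 2 / U ^ 2) := by
    field_simp
  rw [e1]
  have f1 : 1 ≤ CC ρ * (R S * R1 S) / p := by rw [le_div_iff₀ hp0, one_mul]; exact hp
  have f2 : 0 ≤ (CC ρ * (R S * R2 S) / p) * B := by positivity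
  have f3 : T ^ 2 / (R S ^ 2 * U ^ 2) ≤ (CC ρ / p) * (T ^ 2 / U ^ 2) := by
    have g1 : 1 / R S ^ 2 ≤ CC ρ / p := by
      rw [div_le_div_iff₀ (by positivity) hp0, one_mul]
      refine hp.trans ?_
      apply mul_le_mul_of_nonneg_left _ hC0.le
      nlinarith
    calc T ^ 2 / (R S ^ 2 * U ^ 2) = (1 / R S ^ 2) * (T ^ 2 / U ^ 2) := by field_simp
      _ ≤ (CC ρ / p) * (T ^ 2 / U ^ 2) := mul_le_mul_of_nonneg_right g1 (by positivity)
  have f4 : A ≤ (CC ρ * (R S * R1 S) / p) * A := by nlinarith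
  linarith

end Vale.Agent.P252
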