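import Mathlib

/-! Weighted averages `∫ θ in 0..1, θ^κ f(θ t)` and their smoothness on the closed half line. -/

namespace Vale.Agent.P252

open Set MeasureTheory intervalIntegral Filter Topology

/-- weighted average -/
noncomputable def av (κ : ℝ) (f : ℝ → ℝ) (t : ℝ) : ℝ := ∫ θ in (0:ℝ)..1, θ ^ κ * f (θ * t)

theorem av_continuous {κ : ℝ} (hκ : 0 ≤ κ) {f : ℝ → ℝ} (hf : Continuous f) :
    Continuous (av κ f) := by
  unfold av
  apply intervalIntegral.continuous_parametric_intervalIntegral_of_continuous'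
  simp only [Function.uncurry_def]
  apply Continuous.mul
  · exact Continuous.rpow_const continuous_snd (fun _ => Or.inr hκ)
  · exact hf.comp (continuous_snd.mul continuous_fst)

theorem av_congr {κ : ℝ} {f g : ℝ → ℝ} {t : ℝ} (ht : 0 ≤ t)
    (h : ∀ s, 0 ≤ s → f s = g s) : av κ f t = av κ g t := by
  unfold av
  apply intervalIntegral.integral_congr
  intro θ hθ
  rw [uIcc_of_le zero_le_one] at hθ
  simp only
  rw [h _ (mul_nonneg hθ.1 ht)]

theorem av_hasDerivAt {κ : ℝ} (hκ : 0 ≤ κ) {f f' : ℝ → ℝ} (hf' : Continuous f')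
    (h : ∀ t, HasDerivAt f (f' t) t) (t : ℝ) :
    HasDerivAt (av κ f) (av (κ + 1) f' t) t := by
  have hf : Continuous f := continuous_iff_continuousAt.2 (fun t => (h t).continuousAt)
  obtain ⟨C, hC⟩ := (isCompact_Icc (a := -(|t| + 1)) (b := |t| + 1)).exists_bound_of_continuousOn
    hf'.continuousOn
  have key := intervalIntegral.hasDerivAt_integral_of_dominated_loc_of_deriv_le
    (F := fun x θ => θ ^ κ * f (θ * x)) (F' := fun x θ => θ ^ (κ + 1) * f' (θ * x))
    (x₀ := t) (s := Metric.ball t 1) (μ := volume) (a := 0) (b := 1) (bound := fun _ => C)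
    (Metric.ball_mem_nhds t one_pos) ?_ ?_ ?_ ?_ ?_ ?_
  · exact key.2
  · refine Eventually.of_forall (fun x => ?_)
    apply Continuous.aestronglyMeasurable
    exact (Continuous.rpow_const continuous_id (fun _ => Or.inr hκ)).mul
      (hf.comp (continuous_id.mul continuous_const))
  · apply Continuous.intervalIntegrable
    exact (Continuous.rpow_const continuous_id (fun _ => Or.inr hκ)).mul
      (hf.comp (continuous_id.mul continuous_const))
  · apply Continuous.aestronglyMeasurable
    exact (Continuous.rpow_const continuous_id (fun _ => Or.inr (by linarith))).mul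
      (hf'.comp (continuous_id.mul continuous_const))
  · refine Eventually.of_forall (fun θ hθ x hx => ?_)
    rw [uIoc_of_le zero_le_one] at hθ
    rw [norm_mul]
    have h1 : ‖θ ^ (κ + 1)‖ ≤ 1 := by
      rw [Real.norm_eq_abs, abs_of_nonneg (Real.rpow_nonneg hθ.1.le _)]
      exact Real.rpow_le_one hθ.1.le hθ.2 (by linarith)
    have h2 : ‖f' (θ * x)‖ ≤ C := by
      apply hC
      rw [mem_Icc, ← abs_le]
      rw [abs_mul, abs_of_pos hθ.1]
      have hx' : |x| ≤ |t| + 1 := by
        have := Metric.mem_ball.1 hx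
        rw [Real.dist_eq] at this
        have h3 := abs_add_le (x - t) t
        rw [sub_add_cancel] at h3
        linarith
      calc θ * |x| ≤ 1 * |x| := by gcongr; exact hθ.2
        _ ≤ |t| + 1 := by linarith
    have hC0 : 0 ≤ C := (norm_nonneg _).trans h2
    calc ‖θ ^ (κ + 1)‖ * ‖f' (θ * x)‖ ≤ 1 * C := by gcongr
      _ = C := one_mul _
  · exact intervalIntegrable_const
  · refine Eventually.of_forall (fun θ hθ x _ => ?_)
    rw [uIoc_of_le zero_le_one] at hθ
    have h1 : HasDerivAt (fun x => θ * x) θ x := by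
      simpa using (hasDerivAt_id x).const_mul θ
    have h2 := (h (θ * x)).comp x h1
    have h3 := h2.const_mul (θ ^ κ)
    have h4 : θ ^ (κ + 1) * f' (θ * x) = θ ^ κ * (f' (θ * x) * θ) := by
      rw [Real.rpow_add hθ.1, Real.rpow_one]
      ring
    rw [h4]
    exact h3

/-- one sided version -/
theorem av_hasDerivWithinAt {κ : ℝ} (hκ : 0 ≤ κ) {f f' : ℝ → ℝ} (hf' : ContinuousOn f' (Ici 0))
    (h : ∀ t, 0 ≤ t → HasDerivWithinAt f (f' t) (Ici 0) t) {t : ℝ} (ht : 0 ≤ t) :
    HasDerivWithinAt (av κ f) (av (κ + 1) f' t) (Ici 0) t := by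
  set e : ℝ → ℝ := fun s => f' (max s 0) with he
  have hec : Continuous e := by
    refine hf'.comp_continuous (continuous_id.max continuous_const) (fun x => ?_)
    simp
  set E : ℝ → ℝ := fun s => f 0 + ∫ x in (0:ℝ)..s, e x with hE
  have hEd : ∀ s, HasDerivAt E (e s) s := by
    intro s
    have := intervalIntegral.integral_hasDerivAt_right (hec.intervalIntegrable 0 s)
      (hec.stronglyMeasurableAtFilter _ _) hec.continuousAt
    exact this.const_add (f 0)
  have hEf : ∀ s, 0 ≤ s → E s = f s := by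
    intro s hs
    have hcont : ContinuousOn f (Icc 0 s) := fun x hx =>
      ((h x hx.1).continuousWithinAt).mono Icc_subset_Ici_self
    have := intervalIntegral.integral_eq_sub_of_hasDeriv_right_of_le hs hcont
      (f' := e) (fun x hx => ?_) (hec.intervalIntegrable _ _)
    · rw [hE]; simp only; rw [this]; ring
    · have h1 := h x hx.1.le
      have h2 : e x = f' x := by rw [he]; simp only; rw [max_eq_left hx.1.le]
      rw [h2]
      exact h1.mono (fun y hy => hx.1.le.trans (le_of_lt hy))
  have h1 := (av_hasDerivAt hκ hec hEd t).hasDerivWithinAt (s := Ici 0)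
  have h2 : av (κ + 1) e t = av (κ + 1) f' t :=
    av_congr ht (fun s hs => by rw [he]; simp only; rw [max_eq_left hs])
  rw [h2] at h1
  exact h1.congr (fun x hx => (av_congr hx hEf).symm) (av_congr ht hEf).symm

theorem av_contDiffOn {n : ℕ} : ∀ {κ : ℝ}, 0 ≤ κ → ∀ {f : ℝ → ℝ}, ContDiffOn ℝ n f (Ici 0) →
    ContDiffOn ℝ n (av κ f) (Ici 0) := by
  induction n with
  | zero =>
    intro κ hκ f hf
    simp only [Nat.cast_zero, contDiffOn_zero] at hf ⊢
    have hfc : Continuous (fun s => f (max s 0)) :=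
      hf.comp_continuous (continuous_id.max continuous_const) (fun x => by simp)
    refine (av_continuous hκ hfc).continuousOn.congr (fun x hx => ?_)
    exact av_congr hx (fun s hs => by rw [max_eq_left hs])
  | succ n ih =>
    intro κ hκ f hf
    have hu := uniqueDiffOn_Ici (0:ℝ)
    have hn : ((n + 1 : ℕ) : WithTop ℕ∞) = (n : WithTop ℕ∞) + 1 := by push_cast; rfl
    rw [hn, contDiffOn_succ_iff_derivWithin hu] at hf
    obtain ⟨hd, -, hd'⟩ := hf
    have hder : ∀ t, 0 ≤ t → HasDerivWithinAt f (derivWithin f (Ici 0) t) (Ici 0) t :=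
      fun t ht => (hd t ht).hasDerivWithinAt
    have h1 : ∀ t ∈ Ici (0:ℝ), HasDerivWithinAt (av κ f) (av (κ + 1) (derivWithin f (Ici 0)) t)
        (Ici 0) t := fun t ht => av_hasDerivWithinAt hκ hd'.continuousOn hder ht
    rw [hn, contDiffOn_succ_iff_derivWithin hu]
    refine ⟨fun t ht => (h1 t ht).differentiableWithinAt, by simp, ?_⟩
    refine (ih (κ := κ + 1) (by linarith) hd').congr (fun t ht => ?_)
    exact (h1 t ht).derivWithin (hu t ht)

end Vale.Agent.P252
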