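import Vale.Agent.P252.Defs

/-! Definitions for the form of the affine Bernstein problem over an open convex set `Ω`:
curve lengths, Riemannian distance and completeness, the induced Euclidean metric of a graph and
the Berwald-Blaschke (affine) metric, and the assertion of the problem in dimension `n`. -/

namespace Vale.Agent.P252

open Set Filter Topology
open scoped ContDiff

/-- the length `∫₀¹ √(h_{γ(t)}(γ'(t), γ'(t))) dt` of the curve `γ` for the metric `h` -/
noncomputable def curveLength {n : ℕ}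
    (h : EuclideanSpace ℝ (Fin n) → Matrix (Fin n) (Fin n) ℝ)
    (γ : ℝ → EuclideanSpace ℝ (Fin n)) : ℝ :=
  ∫ t in (0:ℝ)..1, Real.sqrt (∑ i, ∑ j, h (γ t) i j * deriv γ t i * deriv γ t j)

/-- the Riemannian distance of `x` and `y` in `(Ω, h)`: the infimum of the lengths of the
continuously differentiable curves in `Ω` from `x` to `y` -/
noncomputable def riemDist {n : ℕ}
    (h : EuclideanSpace ℝ (Fin n) → Matrix (Fin n) (Fin n) ℝ)
    (Ω : Set (EuclideanSpace ℝ (Fin n))) (x y : EuclideanSpace ℝ (Fin n)) : ℝ :=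
  sInf {l | ∃ γ : ℝ → EuclideanSpace ℝ (Fin n), ContDiff ℝ 1 γ ∧ γ 0 = x ∧ γ 1 = y ∧
    (∀ t ∈ Icc (0:ℝ) 1, γ t ∈ Ω) ∧ l = curveLength h γ}

/-- `(Ω, h)` is complete: every Cauchy sequence for the Riemannian distance converges in `Ω` -/
def RiemComplete {n : ℕ} (h : EuclideanSpace ℝ (Fin n) → Matrix (Fin n) (Fin n) ℝ)
    (Ω : Set (EuclideanSpace ℝ (Fin n))) : Prop :=
  ∀ s : ℕ → EuclideanSpace ℝ (Fin n), (∀ k, s k ∈ Ω) →
    (∀ ε : ℝ, 0 < ε → ∃ N, ∀ k, N ≤ k → ∀ l, N ≤ l → riemDist h Ω (s k) (s l) < ε) →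
    ∃ x ∈ Ω, Tendsto (fun k => riemDist h Ω (s k) x) atTop (𝓝 0)

/-- the induced Euclidean metric of the graph: `g_ij = δ_ij + u_i u_j` -/
noncomputable def euclMetric {n : ℕ} (u : EuclideanSpace ℝ (Fin n) → ℝ)
    (x : EuclideanSpace ℝ (Fin n)) : Matrix (Fin n) (Fin n) ℝ :=
  Matrix.of fun i j => (if i = j then 1 else 0) + pd i u x * pd j u x

/-- the Berwald-Blaschke metric of the graph: `(det D²u)^{-1/(n+2)} u_ij` -/
noncomputable def affMetric {n : ℕ} (u : EuclideanSpace ℝ (Fin n) → ℝ)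
    (x : EuclideanSpace ℝ (Fin n)) : Matrix (Fin n) (Fin n) ℝ :=
  Matrix.of fun i j => (hess u x).det ^ (-(1 / ((n : ℝ) + 2))) * hess u x i j

/-- the affine maximal equation `∑ U^{ij} ∂ᵢ∂ⱼ w = 0` in `Ω` -/
def AffineMaximalOn {n : ℕ} (Ω : Set (EuclideanSpace ℝ (Fin n)))
    (u : EuclideanSpace ℝ (Fin n) → ℝ) : Prop :=
  ∀ x ∈ Ω, ∑ i, ∑ j, (hess u x).det * (hess u x)⁻¹ i j * hess (wOf u) x i j = 0

/-- the graph of `u` over `ℝⁿ` is an elliptic paraboloid -/
def IsEllipticParaboloid {n : ℕ} (u : EuclideanSpace ℝ (Fin n) → ℝ) : Prop :=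
  ∃ (A : Matrix (Fin n) (Fin n) ℝ) (b : Fin n → ℝ) (c : ℝ), A.PosDef ∧
    ∀ x, u x = (1 / 2) * ∑ i, ∑ j, A i j * x i * x j + ∑ i, b i * x i + c

/-- The assertion of the affine Bernstein problem (Q1) in dimension `n`: if `Ω ⊆ ℝⁿ` is nonempty,
open and convex, `u` is smooth in `Ω` with positive definite Hessian, solves the affine maximal
equation in `Ω` and has Euclidean complete graph, then `Ω = ℝⁿ` and the graph is an elliptic
paraboloid. -/
def AffineBernstein (n : ℕ) : Prop :=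
  ∀ (Ω : Set (EuclideanSpace ℝ (Fin n))) (u : EuclideanSpace ℝ (Fin n) → ℝ),
    Ω.Nonempty → IsOpen Ω → Convex ℝ Ω → ContDiffOn ℝ ∞ u Ω →
    (∀ x ∈ Ω, (hess u x).PosDef) → AffineMaximalOn Ω u → RiemComplete (euclMetric u) Ω →
    Ω = univ ∧ IsEllipticParaboloid u

/-- The weaker assertion in which the graph is supposed to be affine complete as well. -/
def AffineBernsteinBoth (n : ℕ) : Prop :=
  ∀ (Ω : Set (EuclideanSpace ℝ (Fin n))) (u : EuclideanSpace ℝ (Fin n) → ℝ),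
    Ω.Nonempty → IsOpen Ω → Convex ℝ Ω → ContDiffOn ℝ ∞ u Ω →
    (∀ x ∈ Ω, (hess u x).PosDef) → AffineMaximalOn Ω u → RiemComplete (euclMetric u) Ω →
    RiemComplete (affMetric u) Ω → Ω = univ ∧ IsEllipticParaboloid u

/-- The entire-graph form: every smooth solution of the affine maximal equation on `ℝⁿ` with
positive definite Hessian is a quadratic polynomial. -/
def EntireBernstein (n : ℕ) : Prop :=
  ∀ u : EuclideanSpace ℝ (Fin n) → ℝ, ContDiff ℝ ∞ u → (∀ x, (hess u x).PosDef) →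
    AffineMaximalOn univ u →
    ∃ (A : Matrix (Fin n) (Fin n) ℝ) (b : Fin n → ℝ) (c : ℝ),
      ∀ x, u x = (1 / 2) * ∑ i, ∑ j, A i j * x i * x j + ∑ i, b i * x i + c

end Vale.Agent.P252
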