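import Vale.Agent.P252.AffC

/-! Assembly: the solution is Euclidean complete and affine complete. -/

namespace Vale.Agent.P252

open Set Finset Filter Topology
open scoped ContDiff

variable {n : ℕ} {R R1 R2 : ℝ → ℝ}

theorem RS_contDiff (hs : ContDiffOn ℝ ∞ R (Ici 0)) (i₀ : Fin n) :
    ContDiff ℝ ∞ (fun x => R (SS i₀ x)) := by
  rw [← contDiffOn_univ]
  exact hs.comp (SS_contDiff i₀).contDiffOn (fun x _ => SS_nonneg i₀ x)

theorem th_contDiff (h : Rad R R1 R2) (hs : ContDiffOn ℝ ∞ R (Ici 0)) (i₀ : Fin n) :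
    ContDiff ℝ ∞ (fun x => Real.arsinh (ff i₀ R x)) := by
  have h1 : ContDiff ℝ ∞ (ff i₀ R) := by
    unfold ff
    exact (coord_contDiff i₀).mul ((RS_contDiff hs i₀).inv
      fun x => (h.pos _ (SS_nonneg i₀ x)).1.ne')
  exact h1.arsinh

theorem affMetric_continuous (h : Rad R R1 R2) (hs : ContDiffOn ℝ ∞ R (Ici 0)) (i₀ : Fin n)
    (i j : Fin n) : Continuous fun x => affMetric (uu i₀ R) x i j := by
  have hu := uu_contDiff h hs i₀
  have h1 : ∀ i j, Continuous fun x => hess (uu i₀ R) x i j := by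
    intro i j
    simp only [hess, Matrix.of_apply]
    exact (pd_contDiff (pd_contDiff hu j) i).continuous
  have h2 : Continuous fun x => hess (uu i₀ R) x := continuous_matrix h1
  have h3 : Continuous fun x => (hess (uu i₀ R) x).det := h2.matrix_det
  simp only [affMetric, Matrix.of_apply]
  exact (h3.rpow_const fun x => Or.inl (uu_posDef h i₀ x).det_pos.ne').mul (h1 i j)

theorem affComplete (h : Rad R R1 R2) (hs : ContDiffOn ℝ ∞ R (Ici 0)) {ρ : ℝ}
    (hB : Bd R R1 R2 ρ) (i₀ : Fin n) {m : ℕ} (hm : n = m + 2) :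
    RiemComplete (affMetric (uu i₀ R)) univ := by
  have hC : 0 < CC ρ := by have := CC_ge hB.pos; linarith
  apply riemComplete_of (ι := Fin n)
    (f := fun a x => if a = i₀ then Real.arsinh (ff i₀ R x) else x a) (C := CC ρ)
  · exact affMetric_continuous h hs i₀
  · intro a
    by_cases ha : a = i₀
    · simp only [ha, if_true]
      exact (th_contDiff h hs i₀).of_le (by simp)
    · simp only [ha, if_false]
      exact coord_contDiff a
  · exact hC
  · intro a x v
    have h1 := aff_bound h hB i₀ hm x v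
    by_cases ha : a = i₀
    · simp only [ha, if_true]
      have : 0 ≤ ∑ i, cc i₀ i * (v i * v i) :=
        Finset.sum_nonneg (fun i _ => mul_nonneg (cc_nonneg _ _) (mul_self_nonneg _))
      linarith
    · simp only [ha, if_false]
      rw [coord_fderiv]
      have h2 : cc i₀ a * (v a * v a) ≤ ∑ i, cc i₀ i * (v i * v i) :=
        Finset.single_le_sum (f := fun i => cc i₀ i * (v i * v i))
          (fun i _ => mul_nonneg (cc_nonneg _ _) (mul_self_nonneg _)) (Finset.mem_univ a)
      have h3 : cc i₀ a = 1 := by unfold cc; rw [if_neg ha]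
      rw [h3] at h2
      have h4 := sq_nonneg (fderiv ℝ (fun x => Real.arsinh (ff i₀ R x)) x v)
      nlinarith
  · intro s hl
    choose l hl using hl
    have hl1 : ∀ a, a ≠ i₀ → Tendsto (fun k => s k a) atTop (𝓝 (l a)) := by
      intro a ha
      have := hl a
      simp only [ha, if_false] at this
      exact this
    have hl2 : Tendsto (fun k => Real.arsinh (ff i₀ R (s k))) atTop (𝓝 (l i₀)) := by
      have := hl i₀
      simp only [if_true] at this
      exact this
    set S : ℝ := (1 / 2) * ∑ i, cc i₀ i * (l i * l i) with hS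
    have hS0 : 0 ≤ S := by
      have : 0 ≤ ∑ i, cc i₀ i * (l i * l i) :=
        Finset.sum_nonneg (fun i _ => mul_nonneg (cc_nonneg _ _) (mul_self_nonneg _))
      linarith
    have h1 : Tendsto (fun k => SS i₀ (s k)) atTop (𝓝 S) := by
      unfold SS
      apply Tendsto.const_mul
      apply tendsto_finsetSum
      intro i _
      by_cases hi : i = i₀
      · have : cc i₀ i = 0 := by unfold cc; rw [if_pos hi]
        simp only [this, zero_mul]
        exact tendsto_const_nhds
      · exact ((hl1 i hi).mul (hl1 i hi)).const_mul _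
    have h2 : Tendsto (fun k => R (SS i₀ (s k))) atTop (𝓝 (R S)) := by
      have hc : ContinuousWithinAt R (Ici 0) S := (hs.continuousOn) S hS0
      apply hc.tendsto.comp
      exact tendsto_nhdsWithin_iff.2 ⟨h1, Eventually.of_forall fun k => SS_nonneg i₀ (s k)⟩
    have h3 : Tendsto (fun k => ff i₀ R (s k)) atTop (𝓝 (Real.sinh (l i₀))) := by
      have := (Real.continuous_sinh.tendsto (l i₀)).comp hl2
      refine this.congr fun k => ?_
      simp [Real.sinh_arsinh]
    have h4 : Tendsto (fun k => s k i₀) atTop (𝓝 (Real.sinh (l i₀) * R S)) := by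
      refine (h3.mul h2).congr fun k => ?_
      have := (h.pos _ (SS_nonneg i₀ (s k))).1.ne'
      unfold ff
      field_simp
    refine tendsto_coord (l := fun a => if a = i₀ then Real.sinh (l i₀) * R S else l a) ?_
    intro a
    by_cases ha : a = i₀
    · simp only [ha, if_true]
      exact h4
    · simp only [ha, if_false]
      exact hl1 a ha

/-- The solution, with both completeness properties. -/
theorem mainComplete (n : ℕ) (hn : 10 ≤ n) : ∃ u : EuclideanSpace ℝ (Fin n) → ℝ,
    ContDiff ℝ ∞ u ∧ (∀ x, (hess u x).PosDef) ∧ AffineMaximalOn univ u ∧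
    RiemComplete (euclMetric u) univ ∧ RiemComplete (affMetric u) univ ∧
    ¬ ∃ (A : Matrix (Fin n) (Fin n) ℝ) (b : Fin n → ℝ) (c : ℝ),
      ∀ x, u x = (1 / 2) * ∑ i, ∑ j, A i j * x i * x j + ∑ i, b i * x i + c := by
  obtain ⟨m, rfl⟩ : ∃ m, n = m + 2 := ⟨n - 2, by omega⟩
  obtain ⟨R, R1, R2, g, g1, g2, ⟨ρ, hρ, hbd⟩, hR0, hs, hpos, hd0, hd1, he0, he1, heq, hode⟩ :=
    exists_radial2 (m + 1) (by omega)
  have h : Rad R R1 R2 := ⟨hpos, hd0, hd1⟩
  have hw : Wt R R1 R2 g g1 g2 m := by
    refine ⟨he0, he1, ?_, ?_⟩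
    · intro t ht
      rw [heq t ht]
      have e1 : (-((((m + 1 : ℕ) : ℝ) + 2) / (((m + 1 : ℕ) : ℝ) + 3)))
          = (-(((m : ℝ) + 3) / ((m : ℝ) + 4))) := by push_cast; ring
      rw [e1]
      rfl
    · intro t ht
      have := hode t ht
      push_cast at this
      rw [← this]
      ring
  let i₀ : Fin (m + 2) := 0
  have hu := uu_contDiff h hs i₀
  exact ⟨uu i₀ R, hu, uu_posDef h i₀, fun x _ => affineMaximal_uu h hw i₀ rfl x,
    euclComplete hu, affComplete h hs ⟨hρ, hbd⟩ i₀ rfl, uu_not_quadratic hR0 i₀⟩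

theorem not_paraboloid {n : ℕ} {u : EuclideanSpace ℝ (Fin n) → ℝ}
    (h : ¬ ∃ (A : Matrix (Fin n) (Fin n) ℝ) (b : Fin n → ℝ) (c : ℝ),
      ∀ x, u x = (1 / 2) * ∑ i, ∑ j, A i j * x i * x j + ∑ i, b i * x i + c) :
    ¬ IsEllipticParaboloid u := by
  rintro ⟨A, b, c, _, hA⟩
  exact h ⟨A, b, c, hA⟩

theorem not_both (n : ℕ) (hn : 10 ≤ n) : ¬ AffineBernsteinBoth n := by
  obtain ⟨u, h1, h2, h3, h4, h5, h6⟩ := mainComplete n hn
  intro h
  exact not_paraboloid h6 (h univ u univ_nonempty isOpen_univ convex_univ h1.contDiffOn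
    (fun x _ => h2 x) h3 h4 h5).2

theorem not_bern (n : ℕ) (hn : 10 ≤ n) : ¬ AffineBernstein n := by
  intro h
  apply not_both n hn
  intro Ω u a1 a2 a3 a4 a5 a6 a7 _
  exact h Ω u a1 a2 a3 a4 a5 a6 a7

theorem not_entire (n : ℕ) (hn : 10 ≤ n) : ¬ EntireBernstein n := by
  obtain ⟨u, h1, h2, h3, h4, h5, h6⟩ := mainComplete n hn
  exact fun h => h6 (h u h1 h2 h3)

end Vale.Agent.P252
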