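import Mathlib

/-! Definitions used in the statement: partial derivatives, Hessian matrix, the function `w`,
and the affine maximal equation. -/

namespace Vale.Agent.P252

/-- `∂ᵢ f` at `x`: the derivative of `f : ℝⁿ → ℝ` in the `i`-th coordinate direction. -/
noncomputable def pd {n : ℕ} (i : Fin n) (f : EuclideanSpace ℝ (Fin n) → ℝ)
    (x : EuclideanSpace ℝ (Fin n)) : ℝ :=
  fderiv ℝ f x (EuclideanSpace.single i 1)

/-- The Hessian matrix `D²f = (∂ᵢ∂ⱼ f)` at `x`. -/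
noncomputable def hess {n : ℕ} (f : EuclideanSpace ℝ (Fin n) → ℝ)
    (x : EuclideanSpace ℝ (Fin n)) : Matrix (Fin n) (Fin n) ℝ :=
  Matrix.of fun i j => pd i (pd j f) x

/-- `w = (det D²u)^{-(n+1)/(n+2)}`. -/
noncomputable def wOf {n : ℕ} (u : EuclideanSpace ℝ (Fin n) → ℝ)
    (x : EuclideanSpace ℝ (Fin n)) : ℝ :=
  (hess u x).det ^ (-(((n : ℝ) + 1) / ((n : ℝ) + 2)))

/-- The affine maximal equation `∑ U^{ij} ∂ᵢ∂ⱼ w = 0` on all of `ℝⁿ`,
with `U^{ij} = det (D²u) (D²u)⁻¹ᵢⱼ`. -/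
def AffineMaximal {n : ℕ} (u : EuclideanSpace ℝ (Fin n) → ℝ) : Prop :=
  ∀ x, ∑ i, ∑ j, (hess u x).det * (hess u x)⁻¹ i j * hess (wOf u) x i j = 0

end Vale.Agent.P252
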