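import Mathlib

/-! The right-hand side of the singular first order equation and its Lipschitz bound. -/

namespace Vale.Agent.P252

open Set

/-- right-hand side -/
noncomputable def FF (k q v t : ℝ) : ℝ :=
  q * (1 - q) * (1 / v) + (-k ^ 3 * q ^ 2 + (4 * k ^ 2 + 9 * k) * q - 2 * k - 6)
    * (1 / (k * (k * v + 4 * t))) + (2 * q * (6 * q + 2)) * (t / (v * (k * v + 4 * t)))

theorem phi1_lip {v w : ℝ} (hv : 1 ≤ v) (hw : 1 ≤ w) : |1 / v - 1 / w| ≤ |v - w| := by
  have hv0 : 0 < v := by linarith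
  have hw0 : 0 < w := by linarith
  have h : 1 / v - 1 / w = (w - v) / (v * w) := by field_simp
  rw [h, abs_div, abs_of_pos (mul_pos hv0 hw0), abs_sub_comm w v, div_le_iff₀ (mul_pos hv0 hw0)]
  nlinarith [abs_nonneg (v - w), mul_le_mul hv hw zero_le_one hv0.le]

theorem phi2_lip {k v w t : ℝ} (hk : 1 ≤ k) (ht : 0 ≤ t) (hv : 1 ≤ v) (hw : 1 ≤ w) :
    |1 / (k * (k * v + 4 * t)) - 1 / (k * (k * w + 4 * t))| ≤ |v - w| := by
  have hk0 : 0 < k := by linarith
  have hv1 : k ≤ k * v + 4 * t := by nlinarith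
  have hw1 : k ≤ k * w + 4 * t := by nlinarith
  have hv2 : 0 < k * v + 4 * t := by linarith
  have hw2 : 0 < k * w + 4 * t := by linarith
  have h : 1 / (k * (k * v + 4 * t)) - 1 / (k * (k * w + 4 * t))
      = (w - v) / ((k * v + 4 * t) * (k * w + 4 * t)) := by
    field_simp
    ring
  rw [h, abs_div, abs_of_pos (mul_pos hv2 hw2), abs_sub_comm w v, div_le_iff₀ (mul_pos hv2 hw2)]
  have : 1 ≤ (k * v + 4 * t) * (k * w + 4 * t) := by
    calc (1:ℝ) = 1 * 1 := by ring
      _ ≤ _ := mul_le_mul (hk.trans hv1) (hk.trans hw1) zero_le_one hv2.le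
  nlinarith [abs_nonneg (v - w)]

theorem phi3_lip {k v w t : ℝ} (hk : 1 ≤ k) (ht : 0 ≤ t) (hv : 1 ≤ v) (hw : 1 ≤ w) :
    |t / (v * (k * v + 4 * t)) - t / (w * (k * w + 4 * t))| ≤ |v - w| := by
  have hk0 : 0 < k := by linarith
  have hv0 : 0 < v := by linarith
  have hw0 : 0 < w := by linarith
  have hv1 : k ≤ k * v + 4 * t := by nlinarith
  have hw1 : k ≤ k * w + 4 * t := by nlinarith
  have hv2 : 0 < k * v + 4 * t := by linarith
  have hw2 : 0 < k * w + 4 * t := by linarith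
  have h : t / (v * (k * v + 4 * t)) - t / (w * (k * w + 4 * t))
      = (w - v) * (t * (k * v + k * w + 4 * t)) /
        (v * w * ((k * v + 4 * t) * (k * w + 4 * t))) := by
    field_simp
    ring
  have hpos : 0 < v * w * ((k * v + 4 * t) * (k * w + 4 * t)) := by positivity
  have hnum : 0 ≤ t * (k * v + k * w + 4 * t) := by positivity
  rw [h, abs_div, abs_of_pos hpos, abs_mul, abs_of_nonneg hnum, abs_sub_comm w v,
    div_le_iff₀ hpos]
  have key : t * (k * v + k * w + 4 * t) ≤ v * w * ((k * v + 4 * t) * (k * w + 4 * t)) := by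
    have h1 : 1 ≤ v * w := by
      calc (1:ℝ) = 1 * 1 := by ring
        _ ≤ _ := mul_le_mul hv hw zero_le_one hv0.le
    have h2 : t * (k * v + k * w + 4 * t) ≤ (k * v + 4 * t) * (k * w + 4 * t) := by
      have : 0 ≤ k * v * (k * w) := by positivity
      have h3 : 0 ≤ t * (k * v) := by positivity
      have h4 : 0 ≤ t * (k * w) := by positivity
      have h5 : 0 ≤ t * t := by positivity
      nlinarith
    have h6 : 0 ≤ (k * v + 4 * t) * (k * w + 4 * t) := by positivity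
    nlinarith
  exact mul_le_mul_of_nonneg_left key (abs_nonneg _)

/-- Lipschitz constant -/
noncomputable def LL (k : ℝ) : ℝ := 3 * (2 * k ^ 3 + 4 * k ^ 2 + 11 * k + 24)

theorem FF_lip {k q p v w t : ℝ} (hk : 1 ≤ k) (ht : 0 ≤ t) (hv : 1 ≤ v) (hw : 1 ≤ w)
    (hq : q ∈ Icc (0:ℝ) (5/9)) (hp : p ∈ Icc (0:ℝ) (5/9)) :
    |FF k q v t - FF k p w t| ≤ LL k * (|q - p| + |v - w|) := by
  obtain ⟨hq0, hq1⟩ := hq
  obtain ⟨hp0, hp1⟩ := hp
  have hk0 : 0 < k := by linarith
  have hv0 : 0 < v := by linarith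
  have hw0 : 0 < w := by linarith
  have hv1 : k ≤ k * v + 4 * t := by nlinarith
  have hv2 : 0 < k * v + 4 * t := by linarith
  set C : ℝ := 2 * k ^ 3 + 4 * k ^ 2 + 11 * k + 24 with hC
  have hk3 : 0 < k ^ 3 := by positivity
  have hk2 : 0 < k ^ 2 := by positivity
  have hC0 : 0 < C := by positivity
  -- bounds of the coefficient functions
  have a1 : |1 / v| ≤ 1 := by
    rw [abs_of_pos (by positivity), div_le_one hv0]; exact hv
  have a2 : |1 / (k * (k * v + 4 * t))| ≤ 1 := by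
    rw [abs_of_pos (by positivity), div_le_one (by positivity)]
    calc (1:ℝ) = 1 * 1 := by ring
      _ ≤ _ := mul_le_mul hk (hk.trans hv1) zero_le_one hk0.le
  have a3 : |t / (v * (k * v + 4 * t))| ≤ 1 := by
    rw [abs_of_nonneg (by positivity), div_le_one (by positivity)]
    have : 0 ≤ k * v := by positivity
    nlinarith
  -- bounds of the polynomials
  have b1 : |p * (1 - p)| ≤ C := by
    rw [abs_le]; constructor <;> nlinarith
  have b2 : |-k ^ 3 * p ^ 2 + (4 * k ^ 2 + 9 * k) * p - 2 * k - 6| ≤ C := by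
    have h1 : 0 ≤ k ^ 3 * p ^ 2 := by positivity
    have h2 : k ^ 3 * p ^ 2 ≤ k ^ 3 := by
      have : p ^ 2 ≤ 1 := by nlinarith
      nlinarith
    have h3 : 0 ≤ (4 * k ^ 2 + 9 * k) * p := by positivity
    have h4 : (4 * k ^ 2 + 9 * k) * p ≤ 4 * k ^ 2 + 9 * k := by
      have : 0 ≤ 4 * k ^ 2 + 9 * k := by positivity
      nlinarith
    rw [abs_le]; constructor <;> nlinarith
  have b3 : |2 * p * (6 * p + 2)| ≤ C := by
    rw [abs_of_nonneg (by positivity)]
    nlinarith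
  have c1 : |q * (1 - q) - p * (1 - p)| ≤ C * |q - p| := by
    have : q * (1 - q) - p * (1 - p) = (1 - q - p) * (q - p) := by ring
    rw [this, abs_mul]
    apply mul_le_mul_of_nonneg_right _ (abs_nonneg _)
    rw [abs_le]; constructor <;> nlinarith
  have c2 : |(-k ^ 3 * q ^ 2 + (4 * k ^ 2 + 9 * k) * q - 2 * k - 6)
      - (-k ^ 3 * p ^ 2 + (4 * k ^ 2 + 9 * k) * p - 2 * k - 6)| ≤ C * |q - p| := by
    have : (-k ^ 3 * q ^ 2 + (4 * k ^ 2 + 9 * k) * q - 2 * k - 6)
      - (-k ^ 3 * p ^ 2 + (4 * k ^ 2 + 9 * k) * p - 2 * k - 6)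
      = (-k ^ 3 * (q + p) + (4 * k ^ 2 + 9 * k)) * (q - p) := by ring
    rw [this, abs_mul]
    apply mul_le_mul_of_nonneg_right _ (abs_nonneg _)
    have h1 : 0 ≤ k ^ 3 * (q + p) := by positivity
    have h2 : k ^ 3 * (q + p) ≤ k ^ 3 * 2 := by
      apply mul_le_mul_of_nonneg_left _ hk3.le; linarith
    rw [abs_le]; constructor <;> nlinarith
  have c3 : |2 * q * (6 * q + 2) - 2 * p * (6 * p + 2)| ≤ C * |q - p| := by
    have : 2 * q * (6 * q + 2) - 2 * p * (6 * p + 2) = (12 * (q + p) + 4) * (q - p) := by ring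
    rw [this, abs_mul]
    apply mul_le_mul_of_nonneg_right _ (abs_nonneg _)
    rw [abs_of_nonneg (by positivity)]
    nlinarith
  have d1 := phi1_lip hv hw
  have d2 := phi2_lip hk ht hv hw
  have d3 := phi3_lip hk ht hv hw
  have gen : ∀ P Q x y : ℝ, |x| ≤ 1 → |Q| ≤ C → |P - Q| ≤ C * |q - p| → |x - y| ≤ |v - w| →
      |P * x - Q * y| ≤ C * (|q - p| + |v - w|) := by
    intro P Q x y hx hQ hPQ hxy
    have : P * x - Q * y = (P - Q) * x + Q * (x - y) := by ring
    rw [this]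
    calc |(P - Q) * x + Q * (x - y)| ≤ |(P - Q) * x| + |Q * (x - y)| := abs_add_le _ _
      _ = |P - Q| * |x| + |Q| * |x - y| := by rw [abs_mul, abs_mul]
      _ ≤ (C * |q - p|) * 1 + C * |v - w| := by
        apply add_le_add
        · exact mul_le_mul hPQ hx (abs_nonneg _) (by positivity)
        · exact mul_le_mul hQ hxy (abs_nonneg _) hC0.le
      _ = _ := by ring
  have e1 := gen _ _ _ _ a1 b1 c1 d1
  have e2 := gen _ _ _ _ a2 b2 c2 d2
  have e3 := gen _ _ _ _ a3 b3 c3 d3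
  have split : FF k q v t - FF k p w t =
      (q * (1 - q) * (1 / v) - p * (1 - p) * (1 / w)) +
      ((-k ^ 3 * q ^ 2 + (4 * k ^ 2 + 9 * k) * q - 2 * k - 6) * (1 / (k * (k * v + 4 * t)))
        - (-k ^ 3 * p ^ 2 + (4 * k ^ 2 + 9 * k) * p - 2 * k - 6) * (1 / (k * (k * w + 4 * t)))) +
      (2 * q * (6 * q + 2) * (t / (v * (k * v + 4 * t)))
        - 2 * p * (6 * p + 2) * (t / (w * (k * w + 4 * t)))) := by
    unfold FF; ring
  rw [split]
  refine (abs_add_three _ _ _).trans ?_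
  have : LL k = 3 * C := by rw [hC]; rfl
  rw [this]
  linarith

theorem FF_contDiffAt {k : ℝ} (hk : 0 < k) {n : WithTop ℕ∞} {q v t : ℝ} (hv : 0 < v)
    (ht : 0 ≤ t) :
    ContDiffAt ℝ n (fun p : ℝ × ℝ × ℝ => FF k p.1 p.2.1 p.2.2) (q, v, t) := by
  unfold FF
  have h1 : k * v + 4 * t ≠ 0 := by positivity
  have hv' : v ≠ 0 := hv.ne'
  have hk' : k ≠ 0 := hk.ne'
  have c1 : ContDiffAt ℝ n (fun p : ℝ × ℝ × ℝ => p.1) (q, v, t) := contDiffAt_fst
  have c2 : ContDiffAt ℝ n (fun p : ℝ × ℝ × ℝ => p.2.1) (q, v, t) :=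
    contDiffAt_fst.comp _ contDiffAt_snd
  have c3 : ContDiffAt ℝ n (fun p : ℝ × ℝ × ℝ => p.2.2) (q, v, t) :=
    contDiffAt_snd.comp _ contDiffAt_snd
  refine ContDiffAt.add (ContDiffAt.add ?_ ?_) ?_
  · exact (c1.mul (contDiffAt_const.sub c1)).mul (contDiffAt_const.div c2 hv')
  · refine ContDiffAt.mul ?_ ?_
    · exact (((contDiffAt_const.mul (c1.pow 2)).add (contDiffAt_const.mul c1)).sub
        contDiffAt_const).sub contDiffAt_const
    · exact contDiffAt_const.div (contDiffAt_const.mul ((contDiffAt_const.mul c2).add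
        (contDiffAt_const.mul c3))) (mul_ne_zero hk' h1)
  · refine ContDiffAt.mul ?_ ?_
    · exact (contDiffAt_const.mul c1).mul ((contDiffAt_const.mul c1).add contDiffAt_const)
    · exact c3.div (c2.mul ((contDiffAt_const.mul c2).add (contDiffAt_const.mul c3)))
        (mul_ne_zero hv' h1)

end Vale.Agent.P252
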