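import Vale.Agent.P252.Avg
import Vale.Agent.P252.Field

/-! Solution of the truncated integral equation by the contraction principle. -/

namespace Vale.Agent.P252

open Set MeasureTheory intervalIntegral Filter Topology
open scoped BoundedContinuousFunction

/-- truncation to `[0, 5/9]` -/
noncomputable def cl (q : ℝ) : ℝ := max 0 (min q (5/9))

theorem cl_mem (q : ℝ) : cl q ∈ Icc (0:ℝ) (5/9) := by
  unfold cl
  exact ⟨le_max_left _ _, max_le (by norm_num) (min_le_right _ _)⟩

theorem cl_continuous : Continuous cl := by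
  unfold cl
  fun_prop

theorem cl_lip (a b : ℝ) : |cl a - cl b| ≤ |a - b| := by
  unfold cl
  rw [max_comm 0, max_comm 0]
  refine (abs_max_sub_max_le_abs _ _ _).trans ?_
  refine (abs_min_sub_min_le_max _ _ _ _).trans ?_
  simp

/-- the second unknown -/
noncomputable def VV (q : ℝ → ℝ) (t : ℝ) : ℝ := 1 + ∫ s in (0:ℝ)..(max t 0), (1 - cl (q s))

/-- the forcing term -/
noncomputable def GG (k : ℝ) (q : ℝ → ℝ) (t : ℝ) : ℝ := FF k (cl (q t)) (VV q t) (max t 0)

theorem VV_continuous {q : ℝ → ℝ} (hq : Continuous q) : Continuous (VV q) := by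
  unfold VV
  have hc : Continuous (fun s => 1 - cl (q s)) := continuous_const.sub (cl_continuous.comp hq)
  have h1 : Continuous (fun t => ∫ s in (0:ℝ)..t, (1 - cl (q s))) :=
    intervalIntegral.continuous_primitive (fun a b => hc.intervalIntegrable a b) 0
  exact continuous_const.add (h1.comp (continuous_id.max continuous_const))

theorem VV_ge {q : ℝ → ℝ} (hq : Continuous q) (t : ℝ) : 1 + 4 / 9 * max t 0 ≤ VV q t := by
  unfold VV
  have hc : Continuous (fun s => 1 - cl (q s)) := continuous_const.sub (cl_continuous.comp hq)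
  have h0 : (0:ℝ) ≤ max t 0 := le_max_right _ _
  have h1 : ∫ s in (0:ℝ)..(max t 0), (4/9 : ℝ) ≤ ∫ s in (0:ℝ)..(max t 0), (1 - cl (q s)) := by
    apply intervalIntegral.integral_mono_on h0 (intervalIntegrable_const)
      (hc.intervalIntegrable _ _)
    intro s _
    have := (cl_mem (q s)).2
    linarith
  rw [intervalIntegral.integral_const] at h1
  simp only [sub_zero, smul_eq_mul] at h1
  linarith

theorem VV_ge_one {q : ℝ → ℝ} (hq : Continuous q) (t : ℝ) : 1 ≤ VV q t := by
  have h1 := VV_ge hq t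
  have h0 : (0:ℝ) ≤ max t 0 := le_max_right _ _
  linarith

theorem GG_continuous {k : ℝ} (hk : 1 ≤ k) {q : ℝ → ℝ} (hq : Continuous q) :
    Continuous (GG k q) := by
  rw [continuous_iff_continuousAt]
  intro t
  have hV := VV_continuous hq
  have h1 : ContinuousAt (fun p : ℝ × ℝ × ℝ => FF k p.1 p.2.1 p.2.2)
      (cl (q t), VV q t, max t 0) :=
    (FF_contDiffAt (n := 0) (by linarith) (by have := VV_ge_one hq t; linarith)
      (le_max_right _ _)).continuousAt
  have h2 : Continuous (fun t => (cl (q t), VV q t, max t 0)) :=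
    (cl_continuous.comp hq).prodMk (hV.prodMk (continuous_id.max continuous_const))
  exact ContinuousAt.comp (f := fun t => (cl (q t), VV q t, max t 0))
    (g := fun p : ℝ × ℝ × ℝ => FF k p.1 p.2.1 p.2.2) h1 h2.continuousAt

theorem FF_zero_bound {k v t : ℝ} (hk : 1 ≤ k) (ht : 0 ≤ t) (hv : 1 ≤ v) :
    |FF k 0 v t| ≤ LL k := by
  have hk0 : 0 < k := by linarith
  have hv0 : 0 < v := by linarith
  have hv1 : k ≤ k * v + 4 * t := by nlinarith
  have : FF k 0 v t = -((2 * k + 6) * (1 / (k * (k * v + 4 * t)))) := by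
    unfold FF; ring
  rw [this, abs_neg, abs_of_nonneg (by positivity)]
  have a2 : 1 / (k * (k * v + 4 * t)) ≤ 1 := by
    rw [div_le_one (by positivity)]
    calc (1:ℝ) = 1 * 1 := by ring
      _ ≤ _ := mul_le_mul hk (hk.trans hv1) zero_le_one hk0.le
  have h3 : 0 < k ^ 3 := by positivity
  have h2 : 0 < k ^ 2 := by positivity
  unfold LL
  nlinarith

theorem FF_bound {k q v t : ℝ} (hk : 1 ≤ k) (ht : 0 ≤ t) (hv : 1 ≤ v)
    (hq : q ∈ Icc (0:ℝ) (5/9)) : |FF k q v t| ≤ 2 * LL k := by
  have h1 := FF_lip hk ht hv hv hq (p := 0) (by constructor <;> norm_num)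
  have h2 := FF_zero_bound hk ht hv
  have h3 : |FF k q v t| ≤ |FF k q v t - FF k 0 v t| + |FF k 0 v t| := by
    have := abs_add_le (FF k q v t - FF k 0 v t) (FF k 0 v t)
    simpa using this
  rw [sub_self, abs_zero, sub_zero, add_zero, abs_of_nonneg hq.1] at h1
  have hL : 0 < LL k := by
    unfold LL; have : 0 < k := by linarith
    positivity
  have h4 : LL k * q ≤ LL k := by
    have := hq.2; nlinarith
  linarith

theorem av_bound {κ : ℝ} (hκ : 0 ≤ κ) {f : ℝ → ℝ} {t M Λ : ℝ} (ht : 0 ≤ t)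
    (hΛ : 0 < Λ) (hM : 0 ≤ M)
    (h : ∀ s, 0 ≤ s → |f s| ≤ M * Real.exp (Λ * s)) :
    |t * av κ f t| ≤ M / Λ * Real.exp (Λ * t) := by
  have hM' : 0 ≤ M / Λ := by positivity
  have h1 : |av κ f t| ≤ ∫ θ in (0:ℝ)..1, M * Real.exp (Λ * (θ * t)) := by
    unfold av
    rw [← Real.norm_eq_abs]
    apply intervalIntegral.norm_integral_le_of_norm_le zero_le_one
    · refine Eventually.of_forall (fun θ hθ => ?_)
      rw [norm_mul]
      have h1 : ‖θ ^ κ‖ ≤ 1 := by
        rw [Real.norm_eq_abs, abs_of_nonneg (Real.rpow_nonneg hθ.1.le _)]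
        exact Real.rpow_le_one hθ.1.le hθ.2 hκ
      have h2 := h (θ * t) (mul_nonneg hθ.1.le ht)
      rw [← Real.norm_eq_abs] at h2
      calc ‖θ ^ κ‖ * ‖f (θ * t)‖ ≤ 1 * (M * Real.exp (Λ * (θ * t))) :=
            mul_le_mul h1 h2 (norm_nonneg _) zero_le_one
        _ = _ := one_mul _
    · apply Continuous.intervalIntegrable
      fun_prop
  rw [abs_mul, abs_of_nonneg ht]
  have h2 : t * ∫ θ in (0:ℝ)..1, M * Real.exp (Λ * (θ * t)) ≤ M / Λ * Real.exp (Λ * t) := by
    have h3 : ∫ θ in (0:ℝ)..1, t * (M * Real.exp (Λ * (θ * t)))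
        = (M / Λ * Real.exp (Λ * (1 * t))) - (M / Λ * Real.exp (Λ * (0 * t))) := by
      apply intervalIntegral.integral_eq_sub_of_hasDerivAt
        (f := fun θ => M / Λ * Real.exp (Λ * (θ * t)))
      · intro θ _
        have h4 : HasDerivAt (fun θ => Λ * (θ * t)) (Λ * t) θ := by
          have := ((hasDerivAt_id θ).mul_const t).const_mul Λ
          simpa using this
        have h5 := (h4.exp).const_mul (M / Λ)
        have h6 : M / Λ * (Real.exp (Λ * (θ * t)) * (Λ * t))
            = t * (M * Real.exp (Λ * (θ * t))) := by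
          field_simp
        rw [← h6]; exact h5
      · apply Continuous.intervalIntegrable
        fun_prop
    rw [intervalIntegral.integral_const_mul] at h3
    rw [h3, one_mul]
    have : 0 ≤ M / Λ * Real.exp (Λ * (0 * t)) := by positivity
    linarith
  exact (mul_le_mul_of_nonneg_left h1 ht).trans h2

theorem le_exp_div {Λ t : ℝ} (hΛ : 0 < Λ) : t ≤ Real.exp (Λ * t) / Λ := by
  rw [le_div_iff₀ hΛ]
  have := Real.add_one_le_exp (Λ * t)
  nlinarith

/-- The integral operator, in the weighted unknown. -/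
noncomputable def opFun (k q₀ Λ : ℝ) (z : ℝ → ℝ) (t : ℝ) : ℝ :=
  Real.exp (-(Λ * max t 0)) *
    (q₀ + max t 0 * av ((k + 2) / 2) (GG k (fun s => Real.exp (Λ * s) * z s)) (max t 0))

theorem opFun_continuous {k q₀ Λ : ℝ} (hk : 1 ≤ k) {z : ℝ → ℝ} (hz : Continuous z) :
    Continuous (opFun k q₀ Λ z) := by
  unfold opFun
  have h1 : Continuous (fun s => Real.exp (Λ * s) * z s) := by fun_prop
  have h2 := GG_continuous hk h1
  have h3 := av_continuous (κ := (k+2)/2) (by linarith) h2
  have h4 : Continuous (fun t : ℝ => max t 0) := continuous_id.max continuous_const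
  have h5 := h3.comp h4
  have h6 : Continuous (fun t : ℝ => Real.exp (-(Λ * max t 0))) := by fun_prop
  exact h6.mul (continuous_const.add (h4.mul h5))

theorem opFun_bound {k q₀ Λ : ℝ} (hk : 1 ≤ k) (hΛ : 0 < Λ) {z : ℝ → ℝ} (hz : Continuous z)
    (t : ℝ) : |opFun k q₀ Λ z t| ≤ |q₀| + 2 * LL k / Λ := by
  unfold opFun
  have hL : 0 < LL k := by
    unfold LL; have : 0 < k := by linarith
    positivity
  have h1 : Continuous (fun s => Real.exp (Λ * s) * z s) := by fun_prop
  have h2 := GG_continuous hk h1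
  have ht : (0:ℝ) ≤ max t 0 := le_max_right _ _
  have h3 : |max t 0 * av ((k + 2) / 2) (GG k (fun s => Real.exp (Λ * s) * z s)) (max t 0)|
      ≤ 2 * LL k / Λ * Real.exp (Λ * max t 0) := by
    apply av_bound (by linarith) ht hΛ (by positivity)
    intro s hs
    have h4 : |GG k (fun s => Real.exp (Λ * s) * z s) s| ≤ 2 * LL k :=
      FF_bound hk (le_max_right _ _) (VV_ge_one h1 s) (cl_mem _)
    have h5 : 1 ≤ Real.exp (Λ * s) := Real.one_le_exp (by positivity)
    nlinarith
  rw [abs_mul, abs_of_pos (Real.exp_pos _)]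
  have h4 := abs_add_le q₀
    (max t 0 * av ((k + 2) / 2) (GG k (fun s => Real.exp (Λ * s) * z s)) (max t 0))
  have h5 : 1 ≤ Real.exp (Λ * max t 0) := Real.one_le_exp (by positivity)
  have h6 : Real.exp (-(Λ * max t 0)) * Real.exp (Λ * max t 0) = 1 := by
    rw [← Real.exp_add]; simp
  have h7 : 0 < Real.exp (-(Λ * max t 0)) := Real.exp_pos _
  calc Real.exp (-(Λ * max t 0)) * |q₀ +
        max t 0 * av ((k + 2) / 2) (GG k (fun s => Real.exp (Λ * s) * z s)) (max t 0)|
      ≤ Real.exp (-(Λ * max t 0)) * (|q₀| + 2 * LL k / Λ * Real.exp (Λ * max t 0)) := by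
        apply mul_le_mul_of_nonneg_left _ h7.le
        linarith
    _ ≤ Real.exp (-(Λ * max t 0)) * ((|q₀| + 2 * LL k / Λ) * Real.exp (Λ * max t 0)) := by
        apply mul_le_mul_of_nonneg_left _ h7.le
        have := abs_nonneg q₀
        nlinarith
    _ = (|q₀| + 2 * LL k / Λ) := by
        calc _ = (|q₀| + 2 * LL k / Λ) *
              (Real.exp (-(Λ * max t 0)) * Real.exp (Λ * max t 0)) := by ring
          _ = _ := by rw [h6, mul_one]

theorem av_sub {κ : ℝ} (hκ : 0 ≤ κ) {f g : ℝ → ℝ} (hf : Continuous f) (hg : Continuous g)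
    (t : ℝ) : av κ f t - av κ g t = av κ (fun s => f s - g s) t := by
  unfold av
  rw [← intervalIntegral.integral_sub]
  · apply intervalIntegral.integral_congr
    intro θ _
    simp only
    ring
  · apply Continuous.intervalIntegrable
    exact (Continuous.rpow_const continuous_id (fun _ => Or.inr hκ)).mul
      (hf.comp (continuous_id.mul continuous_const))
  · apply Continuous.intervalIntegrable
    exact (Continuous.rpow_const continuous_id (fun _ => Or.inr hκ)).mul
      (hg.comp (continuous_id.mul continuous_const))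

theorem VV_diff {p q : ℝ → ℝ} (hp : Continuous p) (hq : Continuous q) {d Λ : ℝ} (hΛ : 1 ≤ Λ)
    (hd : 0 ≤ d) (h : ∀ s, 0 ≤ s → |p s - q s| ≤ d * Real.exp (Λ * s)) {t : ℝ} (ht : 0 ≤ t) :
    |VV p t - VV q t| ≤ d * Real.exp (Λ * t) := by
  have hΛ0 : 0 < Λ := by linarith
  have hcp : Continuous (fun s => 1 - cl (p s)) := continuous_const.sub (cl_continuous.comp hp)
  have hcq : Continuous (fun s => 1 - cl (q s)) := continuous_const.sub (cl_continuous.comp hq)
  have h1 : VV p t - VV q t = ∫ s in (0:ℝ)..t, ((1 - cl (p s)) - (1 - cl (q s))) := by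
    unfold VV
    rw [max_eq_left ht, intervalIntegral.integral_sub (hcp.intervalIntegrable _ _)
      (hcq.intervalIntegrable _ _)]
    ring
  rw [h1, ← Real.norm_eq_abs]
  have h2 : ‖∫ s in (0:ℝ)..t, ((1 - cl (p s)) - (1 - cl (q s)))‖
      ≤ ∫ s in (0:ℝ)..t, d * Real.exp (Λ * s) := by
    apply intervalIntegral.norm_integral_le_of_norm_le ht
    · refine Eventually.of_forall (fun s hs => ?_)
      have h3 := cl_lip (p s) (q s)
      have h4 := h s hs.1.le
      rw [Real.norm_eq_abs]
      have h5 : (1 - cl (p s)) - (1 - cl (q s)) = -(cl (p s) - cl (q s)) := by ring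
      rw [h5, abs_neg]
      exact h3.trans h4
    · apply Continuous.intervalIntegrable
      fun_prop
  refine h2.trans ?_
  have h3 : ∫ s in (0:ℝ)..t, d * Real.exp (Λ * s)
      = d / Λ * Real.exp (Λ * t) - d / Λ * Real.exp (Λ * 0) := by
    apply intervalIntegral.integral_eq_sub_of_hasDerivAt
      (f := fun s => d / Λ * Real.exp (Λ * s))
    · intro s _
      have h4 : HasDerivAt (fun s => Λ * s) Λ s := by
        have := (hasDerivAt_id s).const_mul Λ
        simpa using this
      have h5 := (h4.exp).const_mul (d / Λ)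
      have h6 : d / Λ * (Real.exp (Λ * s) * Λ) = d * Real.exp (Λ * s) := by
        field_simp
      rw [← h6]; exact h5
    · apply Continuous.intervalIntegrable
      fun_prop
  rw [h3]
  have h4 : 0 ≤ d / Λ * Real.exp (Λ * 0) := by positivity
  have h5 : d / Λ ≤ d := div_le_self hd hΛ
  have h6 : d / Λ * Real.exp (Λ * t) ≤ d * Real.exp (Λ * t) :=
    mul_le_mul_of_nonneg_right h5 (Real.exp_pos _).le
  linarith

theorem opFun_contract {k q₀ Λ : ℝ} (hk : 1 ≤ k) (hΛ : Λ = 4 * LL k) {y z : ℝ → ℝ}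
    (hy : Continuous y) (hz : Continuous z) {d : ℝ} (hd : 0 ≤ d)
    (h : ∀ s, |y s - z s| ≤ d) (t : ℝ) :
    |opFun k q₀ Λ y t - opFun k q₀ Λ z t| ≤ d / 2 := by
  have hL : 0 < LL k := by
    unfold LL; have : 0 < k := by linarith
    positivity
  have hL1 : 1 ≤ LL k := by
    unfold LL
    have h1 : 0 < k := by linarith
    have h2 : 0 < k ^ 3 := by positivity
    have h3 : 0 < k ^ 2 := by positivity
    nlinarith
  have hΛ1 : 1 ≤ Λ := by rw [hΛ]; linarith
  have hΛ0 : 0 < Λ := by linarith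
  set Y : ℝ → ℝ := fun s => Real.exp (Λ * s) * y s with hY
  set Z : ℝ → ℝ := fun s => Real.exp (Λ * s) * z s with hZ
  have hYc : Continuous Y := by fun_prop
  have hZc : Continuous Z := by fun_prop
  have hYZ : ∀ s, |Y s - Z s| ≤ d * Real.exp (Λ * s) := by
    intro s
    have : Y s - Z s = (y s - z s) * Real.exp (Λ * s) := by
      simp only [hY, hZ]; ring
    rw [this, abs_mul, abs_of_pos (Real.exp_pos _)]
    exact mul_le_mul_of_nonneg_right (h s) (Real.exp_pos _).le
  have hGY := GG_continuous hk hYc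
  have hGZ := GG_continuous hk hZc
  have ht : (0:ℝ) ≤ max t 0 := le_max_right _ _
  have h1 : |max t 0 * av ((k + 2) / 2) (fun s => GG k Y s - GG k Z s) (max t 0)|
      ≤ (2 * LL k * d) / Λ * Real.exp (Λ * max t 0) := by
    apply av_bound (by linarith) ht hΛ0 (by positivity)
    intro s hs
    have h2 : |GG k Y s - GG k Z s| ≤ LL k * (|cl (Y s) - cl (Z s)| + |VV Y s - VV Z s|) :=
      FF_lip hk (le_max_right _ _) (VV_ge_one hYc s) (VV_ge_one hZc s) (cl_mem _) (cl_mem _)
    have h3 := (cl_lip (Y s) (Z s)).trans (hYZ s)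
    have h4 := VV_diff hYc hZc hΛ1 hd (fun s _ => hYZ s) hs
    calc |GG k Y s - GG k Z s| ≤ LL k * (|cl (Y s) - cl (Z s)| + |VV Y s - VV Z s|) := h2
      _ ≤ LL k * (d * Real.exp (Λ * s) + d * Real.exp (Λ * s)) := by
        apply mul_le_mul_of_nonneg_left _ hL.le
        linarith
      _ = _ := by ring
  have h2 : opFun k q₀ Λ y t - opFun k q₀ Λ z t = Real.exp (-(Λ * max t 0)) *
      (max t 0 * av ((k + 2) / 2) (fun s => GG k Y s - GG k Z s) (max t 0)) := by
    rw [← av_sub (by linarith) hGY hGZ]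
    unfold opFun
    ring
  rw [h2, abs_mul, abs_of_pos (Real.exp_pos _)]
  have h6 : Real.exp (-(Λ * max t 0)) * Real.exp (Λ * max t 0) = 1 := by
    rw [← Real.exp_add]; simp
  calc Real.exp (-(Λ * max t 0)) *
        |max t 0 * av ((k + 2) / 2) (fun s => GG k Y s - GG k Z s) (max t 0)|
      ≤ Real.exp (-(Λ * max t 0)) * ((2 * LL k * d) / Λ * Real.exp (Λ * max t 0)) :=
        mul_le_mul_of_nonneg_left h1 (Real.exp_pos _).le
    _ = (2 * LL k * d) / Λ * (Real.exp (-(Λ * max t 0)) * Real.exp (Λ * max t 0)) := by ring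
    _ = d / 2 := by
      rw [h6, mul_one, hΛ]; field_simp; ring

/-- Existence for the truncated integral equation. -/
theorem exists_trunc {k : ℝ} (hk : 1 ≤ k) (q₀ : ℝ) : ∃ q : ℝ → ℝ, Continuous q ∧
    ∀ t, 0 ≤ t → q t = q₀ + t * av ((k + 2) / 2) (GG k q) t := by
  have hL : 0 < LL k := by
    unfold LL; have : 0 < k := by linarith
    positivity
  set Λ : ℝ := 4 * LL k with hΛ
  have hΛ0 : 0 < Λ := by positivity
  let T : (ℝ →ᵇ ℝ) → (ℝ →ᵇ ℝ) := fun z =>
    BoundedContinuousFunction.ofNormedAddCommGroup (opFun k q₀ Λ z)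
      (opFun_continuous hk z.continuous) (|q₀| + 2 * LL k / Λ)
      (fun t => by rw [Real.norm_eq_abs]; exact opFun_bound hk hΛ0 z.continuous t)
  have hT : ContractingWith (1/2 : NNReal) T := by
    refine ⟨by rw [← NNReal.coe_lt_coe]; push_cast; norm_num, ?_⟩
    apply LipschitzWith.of_dist_le_mul
    intro y z
    have hd : 0 ≤ dist y z := dist_nonneg
    rw [BoundedContinuousFunction.dist_le (by positivity)]
    intro t
    have := opFun_contract (q₀ := q₀) hk hΛ y.continuous z.continuous hd (fun s => by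
      rw [← Real.dist_eq]; exact BoundedContinuousFunction.dist_coe_le_dist s) t
    have h2 : dist (T y t) (T z t) = |opFun k q₀ Λ y t - opFun k q₀ Λ z t| := Real.dist_eq _ _
    rw [h2]
    refine this.trans (le_of_eq ?_)
    push_cast
    ring
  set z := hT.fixedPoint T with hz
  have hfix : T z = z := hT.fixedPoint_isFixedPt
  refine ⟨fun s => Real.exp (Λ * s) * z s, by fun_prop, ?_⟩
  intro t ht
  have h1 : z t = opFun k q₀ Λ z t := by
    conv_lhs => rw [← hfix]
    rfl
  simp only
  rw [h1]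
  unfold opFun
  rw [max_eq_left ht, ← mul_assoc, ← Real.exp_add]
  simp

end Vale.Agent.P252
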