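import Mathlib

/-! Algebra of the matrices `a I_x + b z zᵀ + c (z eᵀ + e zᵀ) + d e eᵀ`. -/

namespace Vale.Agent.P252

open Matrix Finset

variable {n : ℕ}

/-- indicator of the axis coordinate -/
def ee (i₀ : Fin n) (i : Fin n) : ℝ := if i = i₀ then 1 else 0

/-- indicator of the other coordinates -/
def cc (i₀ : Fin n) (i : Fin n) : ℝ := if i = i₀ then 0 else 1

theorem cc_add_ee (i₀ i : Fin n) : cc i₀ i + ee i₀ i = 1 := by
  unfold cc ee; split_ifs <;> norm_num

theorem cc_mul_ee (i₀ i : Fin n) : cc i₀ i * ee i₀ i = 0 := by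
  unfold cc ee; split_ifs <;> norm_num

theorem ee_mul_self (i₀ i : Fin n) : ee i₀ i * ee i₀ i = ee i₀ i := by
  unfold ee; split_ifs <;> norm_num

theorem sum_ee (i₀ : Fin n) : ∑ i, ee i₀ i = 1 := by
  simp [ee]

theorem sum_ee_mul (i₀ : Fin n) (f : Fin n → ℝ) : ∑ i, ee i₀ i * f i = f i₀ := by
  simp [ee]

theorem sum_cc (i₀ : Fin n) : ∑ i, cc i₀ i = (n : ℝ) - 1 := by
  have : ∑ i, (cc i₀ i + ee i₀ i) = (n : ℝ) := by simp [cc_add_ee]
  rw [Finset.sum_add_distrib, sum_ee] at this
  linarith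

/-- the structured matrices -/
noncomputable def MM (i₀ : Fin n) (z : Fin n → ℝ) (a b c d : ℝ) : Matrix (Fin n) (Fin n) ℝ :=
  Matrix.of fun i j => a * (if i = j then cc i₀ i else 0) + b * (z i * z j)
    + c * (z i * ee i₀ j + ee i₀ i * z j) + d * (ee i₀ i * ee i₀ j)

/-- product with a vector `α z + β e` -/
theorem MM_mulVec (i₀ : Fin n) {z : Fin n → ℝ} (hz : z i₀ = 0) {S : ℝ}
    (hS : ∑ i, z i * z i = 2 * S) (a b c d α β : ℝ) (i : Fin n) :
    ∑ j, MM i₀ z a b c d i j * (α * z j + β * ee i₀ j)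
      = (a * α + 2 * S * b * α + c * β) * z i + (2 * S * c * α + d * β) * ee i₀ i := by
  have h1 : ∑ j, (if i = j then cc i₀ i else 0) * (α * z j + β * ee i₀ j) = α * z i := by
    simp only [ite_mul, zero_mul, Finset.sum_ite_eq, Finset.mem_univ, if_true]
    unfold cc ee
    split_ifs with h
    · rw [h, hz]; ring
    · ring
  have hze : ∑ j, z j * ee i₀ j = 0 := by
    have := sum_ee_mul i₀ z
    rw [hz] at this
    rw [← this]
    exact Finset.sum_congr rfl (fun j _ => mul_comm _ _)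
  have hee : ∑ j, ee i₀ j * ee i₀ j = 1 := by
    simp only [ee_mul_self, sum_ee]
  have h2 : ∑ j, MM i₀ z a b c d i j * (α * z j + β * ee i₀ j)
      = a * ∑ j, (if i = j then cc i₀ i else 0) * (α * z j + β * ee i₀ j)
      + (b * α * z i + c * α * ee i₀ i) * ∑ j, z j * z j
      + (b * β * z i + c * α * z i + c * β * ee i₀ i + d * α * ee i₀ i) * ∑ j, z j * ee i₀ j
      + (c * β * z i + d * β * ee i₀ i) * ∑ j, ee i₀ j * ee i₀ j := by
    simp only [Finset.mul_sum, ← Finset.sum_add_distrib]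
    apply Finset.sum_congr rfl
    intro j _
    simp only [MM, Matrix.of_apply]
    ring
  rw [h2, h1, hS, hze, hee]
  ring

/-- product of two structured matrices -/
theorem MM_mul (i₀ : Fin n) {z : Fin n → ℝ} (hz : z i₀ = 0) {S : ℝ}
    (hS : ∑ i, z i * z i = 2 * S) (a b c d a' b' c' d' : ℝ) (i k : Fin n) :
    ∑ j, MM i₀ z a b c d i j * MM i₀ z a' b' c' d' j k
      = a * a' * (if i = k then cc i₀ i else 0)
      + (a * b' + b * a' + 2 * S * b * b' + c * c') * (z i * z k)
      + (a * c' + 2 * S * b * c' + c * d') * (z i * ee i₀ k)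
      + (c * a' + 2 * S * c * b' + d * c') * (ee i₀ i * z k)
      + (2 * S * c * c' + d * d') * (ee i₀ i * ee i₀ k) := by
  have hcz : ∀ j, z j * cc i₀ j = z j := by
    intro j
    unfold cc
    split_ifs with h
    · rw [h, hz]; ring
    · ring
  -- split the k-th column of the second matrix
  have h1 : ∀ j, MM i₀ z a' b' c' d' j k = a' * (if j = k then cc i₀ j else 0)
      + ((b' * z k + c' * ee i₀ k) * z j + (c' * z k + d' * ee i₀ k) * ee i₀ j) := by
    intro j
    simp only [MM, Matrix.of_apply]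
    ring
  have h2 : ∑ j, MM i₀ z a b c d i j * MM i₀ z a' b' c' d' j k
      = a' * ∑ j, MM i₀ z a b c d i j * (if j = k then cc i₀ j else 0)
      + ∑ j, MM i₀ z a b c d i j *
        ((b' * z k + c' * ee i₀ k) * z j + (c' * z k + d' * ee i₀ k) * ee i₀ j) := by
    rw [Finset.mul_sum, ← Finset.sum_add_distrib]
    apply Finset.sum_congr rfl
    intro j _
    rw [h1 j]
    ring
  have h3 : ∑ j, MM i₀ z a b c d i j * (if j = k then cc i₀ j else 0)
      = MM i₀ z a b c d i k * cc i₀ k := by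
    simp only [mul_ite, mul_zero, Finset.sum_ite_eq', Finset.mem_univ, if_true]
  have h4 : MM i₀ z a b c d i k * cc i₀ k = a * (if i = k then cc i₀ i else 0)
      + b * (z i * z k) + c * (ee i₀ i * z k) := by
    simp only [MM, Matrix.of_apply]
    have e1 : (if i = k then cc i₀ i else 0) * cc i₀ k = if i = k then cc i₀ i else 0 := by
      split_ifs with h
      · subst h; unfold cc; split_ifs <;> norm_num
      · ring
    have e2 := hcz k
    have e3 : ee i₀ k * cc i₀ k = 0 := by rw [mul_comm]; exact cc_mul_ee i₀ k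
    linear_combination a * e1 + (b * z i + c * ee i₀ i) * e2 + (c * z i + d * ee i₀ i) * e3
  rw [h2, h3, h4, MM_mulVec i₀ hz hS]
  ring

/-- criterion for being inverse -/
theorem MM_inv (i₀ : Fin n) {z : Fin n → ℝ} (hz : z i₀ = 0) {S : ℝ}
    (hS : ∑ i, z i * z i = 2 * S) {a b c d a' b' c' d' : ℝ}
    (h1 : a * a' = 1) (h2 : a * b' + b * a' + 2 * S * b * b' + c * c' = 0)
    (h3 : a * c' + 2 * S * b * c' + c * d' = 0) (h4 : c * a' + 2 * S * c * b' + d * c' = 0)
    (h5 : 2 * S * c * c' + d * d' = 1) :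
    (MM i₀ z a b c d)⁻¹ = MM i₀ z a' b' c' d' := by
  apply Matrix.inv_eq_right_inv
  ext i k
  rw [Matrix.mul_apply, MM_mul i₀ hz hS, h1, h2, h3, h4, h5, Matrix.one_apply]
  unfold cc ee
  split_ifs <;> simp_all

theorem MM_det (i₀ : Fin n) {z : Fin n → ℝ} (hz : z i₀ = 0) {S : ℝ}
    (hS : ∑ i, z i * z i = 2 * S) {a b c d : ℝ} (ha : a ≠ 0) (hd : d ≠ 0) {m : ℕ}
    (hm : n = m + 2) :
    (MM i₀ z a b c d).det = a ^ m * ((a + 2 * S * b) * d - 2 * S * c ^ 2) := by
  set D : Matrix (Fin n) (Fin n) ℝ := Matrix.diagonal (fun i => a * cc i₀ i + d * ee i₀ i) with hD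
  set U : Matrix (Fin n) (Fin 2) ℝ := Matrix.of fun i j => if j = 0 then z i else ee i₀ i with hU
  set V : Matrix (Fin 2) (Fin n) ℝ := Matrix.of fun i j =>
    if i = 0 then b * z j + c * ee i₀ j else c * z j with hV
  have hne : ∀ i, a * cc i₀ i + d * ee i₀ i ≠ 0 := by
    intro i; unfold cc ee; split_ifs <;> simpa
  have hDdet : D.det = a ^ (m + 1) * d := by
    rw [hD, Matrix.det_diagonal, ← Finset.mul_prod_erase _ _ (Finset.mem_univ i₀)]
    have : ∏ i ∈ univ.erase i₀, (a * cc i₀ i + d * ee i₀ i) = ∏ i ∈ univ.erase i₀, a := by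
      apply Finset.prod_congr rfl
      intro i hi
      have := Finset.ne_of_mem_erase hi
      simp [cc, ee, this]
    rw [this, Finset.prod_const, Finset.card_erase_of_mem (Finset.mem_univ _), Finset.card_univ,
      Fintype.card_fin, show n - 1 = m + 1 by omega]
    simp [cc, ee]
    ring
  have hdec : MM i₀ z a b c d = D + U * V := by
    ext i j
    rw [Matrix.add_apply, Matrix.mul_apply, Fin.sum_univ_two]
    simp only [MM, hD, hU, hV, Matrix.of_apply, Matrix.diagonal_apply, if_true]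
    by_cases h : i = j
    · subst h
      simp only [if_true]
      have := ee_mul_self i₀ i
      simp only [one_ne_zero, if_false]
      linear_combination d * this
    · simp only [h, if_false, one_ne_zero]
      have : ee i₀ i * ee i₀ j = 0 := by
        unfold ee
        split_ifs with h1 h2 <;> simp_all
      linear_combination d * this
  have hunit : IsUnit D.det := by
    rw [hDdet]; exact (mul_ne_zero (pow_ne_zero _ ha) hd).isUnit
  rw [hdec, Matrix.det_add_mul U V hunit, hDdet]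
  have hDinv : D⁻¹ = Matrix.diagonal (fun i => (a * cc i₀ i + d * ee i₀ i)⁻¹) := by
    apply Matrix.inv_eq_right_inv
    rw [hD, Matrix.diagonal_mul_diagonal]
    rw [← Matrix.diagonal_one]
    congr 1
    ext i
    exact mul_inv_cancel₀ (hne i)
  have hinv : ∀ i, z i * (a * cc i₀ i + d * ee i₀ i)⁻¹ = z i * a⁻¹ := by
    intro i
    unfold cc ee
    split_ifs with h
    · rw [h, hz]; ring
    · simp
  have hinv2 : ∀ i, ee i₀ i * (a * cc i₀ i + d * ee i₀ i)⁻¹ = ee i₀ i * d⁻¹ := by
    intro i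
    unfold cc ee
    split_ifs with h
    · simp
    · simp
  have hze : ∑ j, z j * ee i₀ j = 0 := by
    have := sum_ee_mul i₀ z
    rw [hz] at this
    rw [← this]
    exact Finset.sum_congr rfl (fun j _ => mul_comm _ _)
  have hee : ∑ j, ee i₀ j * ee i₀ j = 1 := by
    simp only [ee_mul_self, sum_ee]
  have key : ∀ p q : Fin n → ℝ, ∀ P Q R T : ℝ, (∀ i, p i = P * z i + Q * ee i₀ i) →
      (∀ i, q i = R * z i + T * ee i₀ i) →
      ∑ i, p i * (a * cc i₀ i + d * ee i₀ i)⁻¹ * q i = P * R * a⁻¹ * (2 * S) + Q * T * d⁻¹ := by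
    intro p q P Q R T hp hq
    have : ∑ i, p i * (a * cc i₀ i + d * ee i₀ i)⁻¹ * q i
        = P * R * a⁻¹ * ∑ i, z i * z i + (P * T * a⁻¹ + Q * R * d⁻¹) * ∑ i, z i * ee i₀ i
          + Q * T * d⁻¹ * ∑ i, ee i₀ i * ee i₀ i := by
      simp only [Finset.mul_sum, ← Finset.sum_add_distrib]
      apply Finset.sum_congr rfl
      intro i _
      rw [hp, hq]
      linear_combination (P * (R * z i + T * ee i₀ i)) * hinv i
        + (Q * (R * z i + T * ee i₀ i)) * hinv2 i
    rw [this, hS, hze, hee]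
    ring
  have hprod : ∀ i j, (V * D⁻¹ * U) i j
      = ∑ l, V i l * (a * cc i₀ l + d * ee i₀ l)⁻¹ * U l j := by
    intro i j
    rw [hDinv, Matrix.mul_apply]
    apply Finset.sum_congr rfl
    intro l _
    rw [Matrix.mul_diagonal]
  rw [Matrix.det_fin_two]
  simp only [Matrix.add_apply, hprod]
  rw [key (V 0) (fun l => U l 0) b c 1 0 (by intro i; simp [hV]) (by intro i; simp [hU]),
    key (V 1) (fun l => U l 1) c 0 0 1 (by intro i; simp [hV]) (by intro i; simp [hU]),
    key (V 0) (fun l => U l 1) b c 0 1 (by intro i; simp [hV]) (by intro i; simp [hU]),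
    key (V 1) (fun l => U l 0) c 0 1 0 (by intro i; simp [hV]) (by intro i; simp [hU])]
  simp only [Matrix.one_apply_eq, ne_eq, zero_ne_one, not_false_eq_true, Matrix.one_apply_ne,
    one_ne_zero]
  field_simp
  ring

end Vale.Agent.P252
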