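import Vale.Agent.P252.Defs
import Vale.Agent.P252.Mat

/-! Gradient calculus in coordinates. -/

namespace Vale.Agent.P252

open Set Finset

variable {n : ℕ}

/-- `f` is differentiable at `x` with partial derivatives `F`. -/
def HasGrad (f : EuclideanSpace ℝ (Fin n) → ℝ) (F : Fin n → ℝ)
    (x : EuclideanSpace ℝ (Fin n)) : Prop :=
  ∃ L : EuclideanSpace ℝ (Fin n) →L[ℝ] ℝ, HasFDerivAt f L x ∧
    ∀ i, L (EuclideanSpace.single i 1) = F i

theorem HasGrad.pd_eq {f : EuclideanSpace ℝ (Fin n) → ℝ} {F : Fin n → ℝ}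
    {x : EuclideanSpace ℝ (Fin n)} (h : HasGrad f F x) (i : Fin n) : pd i f x = F i := by
  obtain ⟨L, hL, hF⟩ := h
  unfold pd
  rw [hL.fderiv, hF]

theorem HasGrad.congr {f : EuclideanSpace ℝ (Fin n) → ℝ} {F G : Fin n → ℝ}
    {x : EuclideanSpace ℝ (Fin n)} (h : HasGrad f F x) (hFG : ∀ i, F i = G i) :
    HasGrad f G x := by
  obtain ⟨L, hL, hF⟩ := h
  exact ⟨L, hL, fun i => (hF i).trans (hFG i)⟩

theorem HasGrad.const (c : ℝ) (x : EuclideanSpace ℝ (Fin n)) :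
    HasGrad (fun _ => c) (fun _ => 0) x :=
  ⟨0, hasFDerivAt_const c x, fun _ => rfl⟩

theorem HasGrad.coord (j : Fin n) (x : EuclideanSpace ℝ (Fin n)) :
    HasGrad (fun x => x j) (fun i => if i = j then 1 else 0) x := by
  have h : HasFDerivAt (fun x : EuclideanSpace ℝ (Fin n) => x j)
      (EuclideanSpace.proj j : EuclideanSpace ℝ (Fin n) →L[ℝ] ℝ) x :=
    (EuclideanSpace.proj j : EuclideanSpace ℝ (Fin n) →L[ℝ] ℝ).hasFDerivAt
  refine ⟨EuclideanSpace.proj j, h, fun i => ?_⟩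
  simp only [EuclideanSpace.coe_proj, PiLp.single_apply]
  simp only [eq_comm]

theorem HasGrad.add {f g : EuclideanSpace ℝ (Fin n) → ℝ} {F G : Fin n → ℝ}
    {x : EuclideanSpace ℝ (Fin n)} (hf : HasGrad f F x) (hg : HasGrad g G x) :
    HasGrad (fun x => f x + g x) (fun i => F i + G i) x := by
  obtain ⟨L, hL, hF⟩ := hf
  obtain ⟨M, hM, hG⟩ := hg
  exact ⟨L + M, hL.add hM, fun i => by simp [hF, hG]⟩

theorem HasGrad.mul {f g : EuclideanSpace ℝ (Fin n) → ℝ} {F G : Fin n → ℝ}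
    {x : EuclideanSpace ℝ (Fin n)} (hf : HasGrad f F x) (hg : HasGrad g G x) :
    HasGrad (fun x => f x * g x) (fun i => f x * G i + F i * g x) x := by
  obtain ⟨L, hL, hF⟩ := hf
  obtain ⟨M, hM, hG⟩ := hg
  refine ⟨f x • M + g x • L, hL.mul hM, fun i => ?_⟩
  simp [hF, hG]
  ring

theorem HasGrad.const_mul {f : EuclideanSpace ℝ (Fin n) → ℝ} {F : Fin n → ℝ}
    {x : EuclideanSpace ℝ (Fin n)} (c : ℝ) (hf : HasGrad f F x) :
    HasGrad (fun x => c * f x) (fun i => c * F i) x :=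
  ((HasGrad.const c x).mul hf).congr (fun i => by ring)

theorem HasGrad.sum {ι : Type*} {s : Finset ι} {f : ι → EuclideanSpace ℝ (Fin n) → ℝ}
    {F : ι → Fin n → ℝ} {x : EuclideanSpace ℝ (Fin n)} (h : ∀ a ∈ s, HasGrad (f a) (F a) x) :
    HasGrad (fun x => ∑ a ∈ s, f a x) (fun i => ∑ a ∈ s, F a i) x := by
  classical
  induction s using Finset.induction_on with
  | empty => simpa using HasGrad.const 0 x
  | insert a s ha ih =>
    have h1 := (h a (Finset.mem_insert_self _ _)).add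
      (ih (fun b hb => h b (Finset.mem_insert_of_mem hb)))
    simp only [Finset.sum_insert ha]
    exact h1

theorem HasGrad.comp {φ : ℝ → ℝ} {φ' : ℝ} {f : EuclideanSpace ℝ (Fin n) → ℝ} {F : Fin n → ℝ}
    {x : EuclideanSpace ℝ (Fin n)} (hφ : HasDerivAt φ φ' (f x)) (hf : HasGrad f F x) :
    HasGrad (fun x => φ (f x)) (fun i => φ' * F i) x := by
  obtain ⟨L, hL, hF⟩ := hf
  exact ⟨φ' • L, hφ.comp_hasFDerivAt x hL, fun i => by simp [hF]⟩

theorem HasGrad.compIci {φ : ℝ → ℝ} {φ' : ℝ} {f : EuclideanSpace ℝ (Fin n) → ℝ} {F : Fin n → ℝ}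
    {x : EuclideanSpace ℝ (Fin n)} (hφ : HasDerivWithinAt φ φ' (Ici 0) (f x))
    (h0 : ∀ y, 0 ≤ f y) (hf : HasGrad f F x) :
    HasGrad (fun x => φ (f x)) (fun i => φ' * F i) x := by
  obtain ⟨L, hL, hF⟩ := hf
  refine ⟨_, hφ.hasFDerivWithinAt.comp_hasFDerivAt x hL (Filter.Eventually.of_forall h0),
    fun i => ?_⟩
  simp [hF, mul_comm]

theorem HasGrad.pow {f : EuclideanSpace ℝ (Fin n) → ℝ} {F : Fin n → ℝ}
    {x : EuclideanSpace ℝ (Fin n)} (hf : HasGrad f F x) (N : ℕ) :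
    HasGrad (fun x => f x ^ (N + 1)) (fun i => ((N : ℝ) + 1) * f x ^ N * F i) x := by
  have h1 : HasDerivAt (fun y : ℝ => y ^ (N + 1)) (((N : ℝ) + 1) * f x ^ N) (f x) := by
    have := hasDerivAt_pow (N + 1) (f x)
    simpa using this
  exact HasGrad.comp h1 hf

/-- half the square norm of the `x`-part -/
noncomputable def SS (i₀ : Fin n) (x : EuclideanSpace ℝ (Fin n)) : ℝ :=
  (1 / 2) * ∑ i, cc i₀ i * (x i * x i)

/-- the `x`-part -/
noncomputable def zz (i₀ : Fin n) (x : EuclideanSpace ℝ (Fin n)) (i : Fin n) : ℝ :=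
  cc i₀ i * x i

theorem cc_nonneg (i₀ i : Fin n) : 0 ≤ cc i₀ i := by unfold cc; split_ifs <;> norm_num

theorem cc_mul_self (i₀ i : Fin n) : cc i₀ i * cc i₀ i = cc i₀ i := by
  unfold cc; split_ifs <;> norm_num

theorem SS_nonneg (i₀ : Fin n) (x : EuclideanSpace ℝ (Fin n)) : 0 ≤ SS i₀ x := by
  unfold SS
  have : 0 ≤ ∑ i, cc i₀ i * (x i * x i) :=
    Finset.sum_nonneg (fun i _ => mul_nonneg (cc_nonneg _ _) (mul_self_nonneg _))
  linarith

theorem zz_zero (i₀ : Fin n) (x : EuclideanSpace ℝ (Fin n)) : zz i₀ x i₀ = 0 := by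
  unfold zz cc; simp

theorem zz_sum (i₀ : Fin n) (x : EuclideanSpace ℝ (Fin n)) :
    ∑ i, zz i₀ x i * zz i₀ x i = 2 * SS i₀ x := by
  unfold SS
  have : ∀ i, zz i₀ x i * zz i₀ x i = cc i₀ i * (x i * x i) := by
    intro i
    unfold zz
    linear_combination (x i * x i) * cc_mul_self i₀ i
  simp only [this]
  ring

theorem SS_grad (i₀ : Fin n) (x : EuclideanSpace ℝ (Fin n)) :
    HasGrad (SS i₀) (zz i₀ x) x := by
  have h1 : ∀ a ∈ (Finset.univ : Finset (Fin n)), HasGrad (fun x => cc i₀ a * (x a * x a))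
      (fun i => cc i₀ a * (2 * x a * (if i = a then 1 else 0))) x := by
    intro a _
    refine (((HasGrad.coord a x).mul (HasGrad.coord a x)).const_mul (cc i₀ a)).congr ?_
    intro i; ring
  have h2 := (HasGrad.sum h1).const_mul (1/2)
  refine h2.congr (fun i => ?_)
  simp [zz]
  ring

theorem zz_grad (i₀ j : Fin n) (x : EuclideanSpace ℝ (Fin n)) :
    HasGrad (fun x => zz i₀ x j) (fun i => if i = j then cc i₀ i else 0) x := by
  unfold zz
  refine ((HasGrad.coord j x).const_mul (cc i₀ j)).congr (fun i => ?_)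
  split_ifs with h
  · rw [h]; ring
  · ring

theorem y_grad (i₀ : Fin n) (x : EuclideanSpace ℝ (Fin n)) :
    HasGrad (fun x => x i₀) (fun i => ee i₀ i) x := by
  refine (HasGrad.coord i₀ x).congr (fun i => ?_)
  unfold ee; rfl

end Vale.Agent.P252
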