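import Vale.Agent.P252.Grad

/-! Verification of the affine maximal equation. -/

namespace Vale.Agent.P252

open Set Finset

variable {n : ℕ}

/-- the solution -/
noncomputable def uu (i₀ : Fin n) (R : ℝ → ℝ) (x : EuclideanSpace ℝ (Fin n)) : ℝ :=
  Real.sqrt (R (SS i₀ x) ^ 2 + x i₀ ^ 2)

/-- radial data -/
structure Rad (R R1 R2 : ℝ → ℝ) : Prop where
  pos : ∀ t, 0 ≤ t → 0 < R t ∧ 0 < R1 t ∧ 0 ≤ R2 t
  d0 : ∀ t, 0 ≤ t → HasDerivWithinAt R (R1 t) (Ici 0) t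
  d1 : ∀ t, 0 ≤ t → HasDerivWithinAt R1 (R2 t) (Ici 0) t

variable {R R1 R2 : ℝ → ℝ}

theorem uu_sq (h : Rad R R1 R2) (i₀ : Fin n) (x : EuclideanSpace ℝ (Fin n)) :
    uu i₀ R x ^ 2 = R (SS i₀ x) ^ 2 + x i₀ ^ 2 := by
  unfold uu
  apply Real.sq_sqrt
  have := (h.pos _ (SS_nonneg i₀ x)).1
  positivity

theorem uu_pos (h : Rad R R1 R2) (i₀ : Fin n) (x : EuclideanSpace ℝ (Fin n)) :
    0 < uu i₀ R x := by
  unfold uu
  apply Real.sqrt_pos.2
  have := (h.pos _ (SS_nonneg i₀ x)).1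
  positivity

/-- `u ∂ⱼu` -/
noncomputable def PP (i₀ : Fin n) (R R1 : ℝ → ℝ) (x : EuclideanSpace ℝ (Fin n)) (j : Fin n) : ℝ :=
  R (SS i₀ x) * R1 (SS i₀ x) * zz i₀ x j + x i₀ * ee i₀ j

theorem R_grad (h : Rad R R1 R2) (i₀ : Fin n) (x : EuclideanSpace ℝ (Fin n)) :
    HasGrad (fun x => R (SS i₀ x)) (fun i => R1 (SS i₀ x) * zz i₀ x i) x :=
  HasGrad.compIci (h.d0 _ (SS_nonneg i₀ x)) (SS_nonneg i₀) (SS_grad i₀ x)

theorem R1_grad (h : Rad R R1 R2) (i₀ : Fin n) (x : EuclideanSpace ℝ (Fin n)) :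
    HasGrad (fun x => R1 (SS i₀ x)) (fun i => R2 (SS i₀ x) * zz i₀ x i) x :=
  HasGrad.compIci (h.d1 _ (SS_nonneg i₀ x)) (SS_nonneg i₀) (SS_grad i₀ x)

theorem uu_grad (h : Rad R R1 R2) (i₀ : Fin n) (x : EuclideanSpace ℝ (Fin n)) :
    HasGrad (uu i₀ R) (fun i => PP i₀ R R1 x i / uu i₀ R x) x := by
  have hR := (h.pos _ (SS_nonneg i₀ x)).1
  have h1 : HasGrad (fun x => R (SS i₀ x) ^ 2 + x i₀ ^ 2)
      (fun i => 2 * PP i₀ R R1 x i) x := by
    refine (((R_grad h i₀ x).pow 1).add ((y_grad i₀ x).pow 1)).congr (fun i => ?_)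
    unfold PP
    push_cast
    ring
  have hne : R (SS i₀ x) ^ 2 + x i₀ ^ 2 ≠ 0 := by positivity
  have h2 := HasGrad.comp (Real.hasDerivAt_sqrt hne) h1
  refine h2.congr (fun i => ?_)
  have h3 := (uu_pos h i₀ x).ne'
  change 1 / (2 * uu i₀ R x) * (2 * PP i₀ R R1 x i) = _
  field_simp

theorem PP_grad (h : Rad R R1 R2) (i₀ j : Fin n) (x : EuclideanSpace ℝ (Fin n)) :
    HasGrad (fun x => PP i₀ R R1 x j) (fun i =>
      (R1 (SS i₀ x) ^ 2 + R (SS i₀ x) * R2 (SS i₀ x)) * (zz i₀ x i * zz i₀ x j)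
      + R (SS i₀ x) * R1 (SS i₀ x) * (if i = j then cc i₀ i else 0)
      + ee i₀ i * ee i₀ j) x := by
  unfold PP
  refine ((((R_grad h i₀ x).mul (R1_grad h i₀ x)).mul (zz_grad i₀ j x)).add
    ((y_grad i₀ x).mul (HasGrad.const (ee i₀ j) x))).congr (fun i => ?_)
  ring

/-- the Hessian of the solution -/
theorem uu_hess (h : Rad R R1 R2) (i₀ : Fin n) (x : EuclideanSpace ℝ (Fin n)) :
    hess (uu i₀ R) x = MM i₀ (zz i₀ x)
      (R (SS i₀ x) * R1 (SS i₀ x) / uu i₀ R x)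
      ((R1 (SS i₀ x) ^ 2 * x i₀ ^ 2 + R (SS i₀ x) * R2 (SS i₀ x) * uu i₀ R x ^ 2)
        / uu i₀ R x ^ 3)
      (-(R (SS i₀ x) * R1 (SS i₀ x) * x i₀) / uu i₀ R x ^ 3)
      (R (SS i₀ x) ^ 2 / uu i₀ R x ^ 3) := by
  ext i j
  have h1 : pd j (uu i₀ R) = fun x => PP i₀ R R1 x j * (uu i₀ R x)⁻¹ := by
    funext y
    rw [(uu_grad h i₀ y).pd_eq j, div_eq_mul_inv]
  have hU := uu_pos h i₀ x
  have hsq := uu_sq h i₀ x
  have h2 : HasGrad (fun x => (uu i₀ R x)⁻¹)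
      (fun i => -(uu i₀ R x ^ 2)⁻¹ * (PP i₀ R R1 x i / uu i₀ R x)) x :=
    HasGrad.comp (hasDerivAt_inv hU.ne') (uu_grad h i₀ x)
  have h3 := ((PP_grad h i₀ j x).mul h2).pd_eq i
  unfold hess
  rw [Matrix.of_apply, h1, h3]
  simp only [MM, Matrix.of_apply, PP]
  field_simp
  linear_combination (R1 (SS i₀ x) ^ 2 * zz i₀ x i * zz i₀ x j + ee i₀ i * ee i₀ j) * hsq

theorem uu_det (h : Rad R R1 R2) (i₀ : Fin n) {m : ℕ} (hm : n = m + 2)
    (x : EuclideanSpace ℝ (Fin n)) :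
    (hess (uu i₀ R) x).det = (R (SS i₀ x) ^ (m + 3) * R1 (SS i₀ x) ^ m *
      (R1 (SS i₀ x) + 2 * SS i₀ x * R2 (SS i₀ x))) / uu i₀ R x ^ (m + 4) := by
  have hU := uu_pos h i₀ x
  have hsq := uu_sq h i₀ x
  obtain ⟨hR, hR1, hR2⟩ := h.pos _ (SS_nonneg i₀ x)
  rw [uu_hess h i₀ x, MM_det i₀ (zz_zero i₀ x) (zz_sum i₀ x) (by positivity) (by positivity) hm]
  set U := uu i₀ R x
  set S := SS i₀ x
  set y := x i₀
  have e1 : (R S * R1 S / U + 2 * S * ((R1 S ^ 2 * y ^ 2 + R S * R2 S * U ^ 2) / U ^ 3)) *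
      (R S ^ 2 / U ^ 3) - 2 * S * (-(R S * R1 S * y) / U ^ 3) ^ 2
      = R S ^ 3 * (R1 S + 2 * S * R2 S) / U ^ 4 := by
    field_simp
    ring
  rw [e1, div_pow, mul_pow]
  field_simp
  ring

theorem uu_posDef (h : Rad R R1 R2) (i₀ : Fin n) (x : EuclideanSpace ℝ (Fin n)) :
    (hess (uu i₀ R) x).PosDef := by
  have hU := uu_pos h i₀ x
  obtain ⟨hR, hR1, hR2⟩ := h.pos _ (SS_nonneg i₀ x)
  rw [uu_hess h i₀ x]
  set U := uu i₀ R x
  set S := SS i₀ x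
  set y := x i₀
  set z := zz i₀ x with hz
  apply Matrix.PosDef.of_dotProduct_mulVec_pos
  · ext i j
    simp only [Matrix.conjTranspose_apply, MM, Matrix.of_apply, star_trivial]
    by_cases hij : i = j
    · subst hij; rfl
    · simp only [hij, Ne.symm hij, if_false]; ring
  · intro v hv
    have hq : star v ⬝ᵥ ((MM i₀ z (R S * R1 S / U)
        ((R1 S ^ 2 * y ^ 2 + R S * R2 S * U ^ 2) / U ^ 3)
        (-(R S * R1 S * y) / U ^ 3) (R S ^ 2 / U ^ 3)).mulVec v)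
        = (R S * R1 S / U) * ∑ i, cc i₀ i * (v i * v i)
        + (R S * R2 S / U) * (∑ i, z i * v i) ^ 2
        + (R1 S * y * (∑ i, z i * v i) - R S * v i₀) ^ 2 / U ^ 3 := by
      have a1 : ∑ i, v i * ∑ j, (if i = j then cc i₀ i else 0) * v j
          = ∑ i, cc i₀ i * (v i * v i) := by
        apply Finset.sum_congr rfl
        intro i _
        simp only [ite_mul, zero_mul, Finset.sum_ite_eq, Finset.mem_univ, if_true]
        ring
      have a2 : ∑ j, ee i₀ j * v j = v i₀ := sum_ee_mul i₀ v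
      have a3 : ∀ i, ((MM i₀ z (R S * R1 S / U)
        ((R1 S ^ 2 * y ^ 2 + R S * R2 S * U ^ 2) / U ^ 3)
        (-(R S * R1 S * y) / U ^ 3) (R S ^ 2 / U ^ 3)).mulVec v) i
          = (R S * R1 S / U) * ∑ j, (if i = j then cc i₀ i else 0) * v j
          + ((R1 S ^ 2 * y ^ 2 + R S * R2 S * U ^ 2) / U ^ 3) * z i * ∑ j, z j * v j
          + (-(R S * R1 S * y) / U ^ 3) * z i * ∑ j, ee i₀ j * v j
          + (-(R S * R1 S * y) / U ^ 3) * ee i₀ i * ∑ j, z j * v j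
          + (R S ^ 2 / U ^ 3) * ee i₀ i * ∑ j, ee i₀ j * v j := by
        intro i
        rw [Matrix.mulVec, dotProduct]
        simp only [Finset.mul_sum, ← Finset.sum_add_distrib]
        apply Finset.sum_congr rfl
        intro j _
        simp only [MM, Matrix.of_apply]
        ring
      rw [dotProduct]
      simp only [star_trivial, a3, a2]
      set τ := ∑ i, z i * v i with hτ
      have a4 : ∀ τ' : ℝ, ∑ i, v i *
          ((R S * R1 S / U) * ∑ j, (if i = j then cc i₀ i else 0) * v j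
          + ((R1 S ^ 2 * y ^ 2 + R S * R2 S * U ^ 2) / U ^ 3) * z i * τ'
          + (-(R S * R1 S * y) / U ^ 3) * z i * v i₀
          + (-(R S * R1 S * y) / U ^ 3) * ee i₀ i * τ'
          + (R S ^ 2 / U ^ 3) * ee i₀ i * v i₀)
          = (R S * R1 S / U) * ∑ i, v i * ∑ j, (if i = j then cc i₀ i else 0) * v j
          + (((R1 S ^ 2 * y ^ 2 + R S * R2 S * U ^ 2) / U ^ 3) * τ'
            + (-(R S * R1 S * y) / U ^ 3) * v i₀) * ∑ i, z i * v i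
          + ((-(R S * R1 S * y) / U ^ 3) * τ' + (R S ^ 2 / U ^ 3) * v i₀) *
            ∑ i, ee i₀ i * v i := by
        intro τ'
        rw [Finset.mul_sum, Finset.mul_sum, Finset.mul_sum, ← Finset.sum_add_distrib,
          ← Finset.sum_add_distrib]
        apply Finset.sum_congr rfl
        intro i _
        ring
      rw [a4, a1, a2, ← hτ]
      field_simp
      ring
    rw [hq]
    have b1 : 0 ≤ ∑ i, cc i₀ i * (v i * v i) :=
      Finset.sum_nonneg (fun i _ => mul_nonneg (cc_nonneg _ _) (mul_self_nonneg _))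
    have b2 : 0 ≤ (R S * R2 S / U) * (∑ i, z i * v i) ^ 2 := by positivity
    have b3 : 0 ≤ (R1 S * y * (∑ i, z i * v i) - R S * v i₀) ^ 2 / U ^ 3 := by positivity
    rcases b1.eq_or_lt with h0 | h0
    · -- all the x-components vanish
      have hzero : ∀ i, i ≠ i₀ → v i = 0 := by
        intro i hi
        have := (Finset.sum_eq_zero_iff_of_nonneg (fun i _ =>
          mul_nonneg (cc_nonneg i₀ i) (mul_self_nonneg (v i)))).1 h0.symm i (Finset.mem_univ _)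
        unfold cc at this
        rw [if_neg hi, one_mul] at this
        exact mul_self_eq_zero.1 this
      have hτ : ∑ i, z i * v i = 0 := by
        apply Finset.sum_eq_zero
        intro i _
        by_cases hi : i = i₀
        · rw [hi, hz, zz_zero, zero_mul]
        · rw [hzero i hi, mul_zero]
      have hv0 : v i₀ ≠ 0 := by
        intro h1
        apply hv
        ext i
        by_cases hi : i = i₀
        · rw [hi, h1]; rfl
        · rw [hzero i hi]; rfl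
      rw [hτ, ← h0]
      have : 0 < (R S * v i₀) ^ 2 := by positivity
      have h4 : 0 < (R1 S * y * 0 - R S * v i₀) ^ 2 / U ^ 3 := by
        rw [mul_zero, zero_sub, neg_sq]; positivity
      nlinarith
    · have b4 : 0 < (R S * R1 S / U) * ∑ i, cc i₀ i * (v i * v i) := by positivity
      linarith

/-- weight data -/
structure Wt (R R1 R2 g g1 g2 : ℝ → ℝ) (m : ℕ) : Prop where
  e0 : ∀ t, 0 ≤ t → HasDerivWithinAt g (g1 t) (Ici 0) t
  e1 : ∀ t, 0 ≤ t → HasDerivWithinAt g1 (g2 t) (Ici 0) t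
  eq : ∀ t, 0 ≤ t → g t = (R t ^ (m + 3) * R1 t ^ m * (R1 t + 2 * t * R2 t)) ^
      (-(((m : ℝ) + 3) / ((m : ℝ) + 4)))
  ode : ∀ t, 0 ≤ t → 2 * t * g2 t + g1 t + ((m : ℝ) * ((R1 t + 2 * t * R2 t) / R1 t)
      + 4 * ((m : ℝ) + 3) * t * (R1 t / R t)) * g1 t
      + ((m : ℝ) + 2) * ((m : ℝ) + 3) *
        ((R t * (R1 t + 2 * t * R2 t) + 2 * t * R1 t ^ 2) / R t ^ 2) * g t = 0

variable {g g1 g2 : ℝ → ℝ} {m : ℕ}

theorem wOf_eq (h : Rad R R1 R2) (hw : Wt R R1 R2 g g1 g2 m) (i₀ : Fin n) (hm : n = m + 2)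
    (x : EuclideanSpace ℝ (Fin n)) :
    wOf (uu i₀ R) x = uu i₀ R x ^ (m + 3) * g (SS i₀ x) := by
  have hU := uu_pos h i₀ x
  have hS := SS_nonneg i₀ x
  obtain ⟨hR, hR1, hR2⟩ := h.pos _ hS
  unfold wOf
  rw [uu_det h i₀ hm x, hw.eq _ hS]
  set U := uu i₀ R x
  set S := SS i₀ x
  set D := R S ^ (m + 3) * R1 S ^ m * (R1 S + 2 * S * R2 S) with hD
  have hD0 : 0 < D := by positivity
  have e1 : -(((n : ℝ) + 1) / ((n : ℝ) + 2)) = -(((m : ℝ) + 3) / ((m : ℝ) + 4)) := by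
    rw [hm]; push_cast; ring
  rw [e1, Real.div_rpow hD0.le (by positivity), ← Real.rpow_natCast U (m + 4),
    ← Real.rpow_mul hU.le]
  have e2 : ((m + 4 : ℕ) : ℝ) * -(((m : ℝ) + 3) / ((m : ℝ) + 4)) = -((m + 3 : ℕ) : ℝ) := by
    push_cast; field_simp
  rw [e2, Real.rpow_neg hU.le, Real.rpow_natCast]
  field_simp

theorem g_grad (h : Wt R R1 R2 g g1 g2 m) (i₀ : Fin n) (x : EuclideanSpace ℝ (Fin n)) :
    HasGrad (fun x => g (SS i₀ x)) (fun i => g1 (SS i₀ x) * zz i₀ x i) x :=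
  HasGrad.compIci (h.e0 _ (SS_nonneg i₀ x)) (SS_nonneg i₀) (SS_grad i₀ x)

theorem g1_grad (h : Wt R R1 R2 g g1 g2 m) (i₀ : Fin n) (x : EuclideanSpace ℝ (Fin n)) :
    HasGrad (fun x => g1 (SS i₀ x)) (fun i => g2 (SS i₀ x) * zz i₀ x i) x :=
  HasGrad.compIci (h.e1 _ (SS_nonneg i₀ x)) (SS_nonneg i₀) (SS_grad i₀ x)

theorem w_grad (h : Rad R R1 R2) (hw : Wt R R1 R2 g g1 g2 m) (i₀ : Fin n) (hm : n = m + 2)
    (x : EuclideanSpace ℝ (Fin n)) :
    HasGrad (wOf (uu i₀ R)) (fun j => ((m : ℝ) + 3) * (uu i₀ R x ^ (m + 1) *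
      (PP i₀ R R1 x j * g (SS i₀ x)))
      + uu i₀ R x ^ (m + 3) * (g1 (SS i₀ x) * zz i₀ x j)) x := by
  have h0 : wOf (uu i₀ R) = fun x => uu i₀ R x ^ (m + 2 + 1) * g (SS i₀ x) := by
    funext y; exact wOf_eq h hw i₀ hm y
  rw [h0]
  have hU := (uu_pos h i₀ x).ne'
  refine (((uu_grad h i₀ x).pow (m + 2)).mul (g_grad hw i₀ x)).congr (fun j => ?_)
  push_cast
  rw [show m + 2 = m + 1 + 1 by ring, pow_succ (uu i₀ R x) (m + 1)]
  field_simp
  ring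

theorem w_hess (h : Rad R R1 R2) (hw : Wt R R1 R2 g g1 g2 m) (i₀ : Fin n) (hm : n = m + 2)
    (x : EuclideanSpace ℝ (Fin n)) :
    hess (wOf (uu i₀ R)) x = MM i₀ (zz i₀ x)
      (uu i₀ R x ^ m * (((m : ℝ) + 3) * uu i₀ R x * (R (SS i₀ x) * R1 (SS i₀ x)) * g (SS i₀ x)
        + uu i₀ R x ^ 3 * g1 (SS i₀ x)))
      (uu i₀ R x ^ m * (((m : ℝ) + 3) * ((m : ℝ) + 1) * (R (SS i₀ x) * R1 (SS i₀ x)) ^ 2
          * g (SS i₀ x) / uu i₀ R x
        + ((m : ℝ) + 3) * uu i₀ R x * (R1 (SS i₀ x) ^ 2 + R (SS i₀ x) * R2 (SS i₀ x))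
          * g (SS i₀ x)
        + 2 * ((m : ℝ) + 3) * uu i₀ R x * (R (SS i₀ x) * R1 (SS i₀ x)) * g1 (SS i₀ x)
        + uu i₀ R x ^ 3 * g2 (SS i₀ x)))
      (uu i₀ R x ^ m * (((m : ℝ) + 3) * ((m : ℝ) + 1) * (R (SS i₀ x) * R1 (SS i₀ x))
          * g (SS i₀ x) / uu i₀ R x
        + ((m : ℝ) + 3) * uu i₀ R x * g1 (SS i₀ x)) * x i₀)
      (uu i₀ R x ^ m * (((m : ℝ) + 3) * ((m : ℝ) + 1) * x i₀ ^ 2 * g (SS i₀ x) / uu i₀ R x
        + ((m : ℝ) + 3) * uu i₀ R x * g (SS i₀ x))) := by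
  ext i j
  have h1 : pd j (wOf (uu i₀ R)) = fun x => ((m : ℝ) + 3) * (uu i₀ R x ^ (m + 1) *
      (PP i₀ R R1 x j * g (SS i₀ x)))
      + uu i₀ R x ^ (m + 2 + 1) * (g1 (SS i₀ x) * zz i₀ x j) := by
    funext y
    rw [(w_grad h hw i₀ hm y).pd_eq j]
  have hU := uu_pos h i₀ x
  have h2 := ((((uu_grad h i₀ x).pow m).mul ((PP_grad h i₀ j x).mul
    (g_grad hw i₀ x))).const_mul ((m : ℝ) + 3)).add
    (((uu_grad h i₀ x).pow (m + 2)).mul ((g1_grad hw i₀ x).mul (zz_grad i₀ j x)))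
  unfold hess
  rw [Matrix.of_apply, h1, h2.pd_eq i]
  simp only [MM, Matrix.of_apply, PP]
  push_cast
  rw [show uu i₀ R x ^ (m + 2) = uu i₀ R x ^ m * uu i₀ R x ^ 2 by ring,
    show uu i₀ R x ^ (m + 2 + 1) = uu i₀ R x ^ m * uu i₀ R x ^ 3 by ring,
    show uu i₀ R x ^ (m + 1) = uu i₀ R x ^ m * uu i₀ R x by ring]
  field_simp
  ring

theorem uu_hess_inv (h : Rad R R1 R2) (i₀ : Fin n) (x : EuclideanSpace ℝ (Fin n)) :
    (hess (uu i₀ R) x)⁻¹ = MM i₀ (zz i₀ x)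
      (uu i₀ R x / (R (SS i₀ x) * R1 (SS i₀ x)))
      (-(R2 (SS i₀ x) * uu i₀ R x) / (R (SS i₀ x) * R1 (SS i₀ x) *
        (R1 (SS i₀ x) + 2 * SS i₀ x * R2 (SS i₀ x))))
      (R1 (SS i₀ x) * uu i₀ R x / (R (SS i₀ x) ^ 2 *
        (R1 (SS i₀ x) + 2 * SS i₀ x * R2 (SS i₀ x))) * x i₀)
      (uu i₀ R x ^ 3 / R (SS i₀ x) ^ 2 + 2 * SS i₀ x * uu i₀ R x * R1 (SS i₀ x) ^ 2 * x i₀ ^ 2 /
        (R (SS i₀ x) ^ 3 * (R1 (SS i₀ x) + 2 * SS i₀ x * R2 (SS i₀ x)))) := by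
  have hU := uu_pos h i₀ x
  have hS := SS_nonneg i₀ x
  have hsq := uu_sq h i₀ x
  obtain ⟨hR, hR1, hR2⟩ := h.pos _ hS
  rw [uu_hess h i₀ x]
  set U := uu i₀ R x
  set S := SS i₀ x
  set y := x i₀
  have hSig : 0 < R1 S + 2 * S * R2 S := by positivity
  have hy : y ^ 2 = U ^ 2 - R S ^ 2 := by rw [hsq]; ring
  apply MM_inv i₀ (zz_zero i₀ x) (zz_sum i₀ x)
  · field_simp
  · field_simp
    linear_combination (0:ℝ) * hy
  · field_simp
    linear_combination (0:ℝ) * hy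
  · field_simp
    linear_combination (0:ℝ) * hy
  · field_simp
    linear_combination (0:ℝ) * hy

/-- double sum of two structured matrices -/
theorem MM_pair (i₀ : Fin n) {z : Fin n → ℝ} (hz : z i₀ = 0) {S : ℝ}
    (hS : ∑ i, z i * z i = 2 * S) (a b c d a' b' c' d' : ℝ) :
    ∑ i, ∑ j, MM i₀ z a b c d i j * MM i₀ z a' b' c' d' i j
      = a * a' * ((n : ℝ) - 1) + (a * b' + b * a' + 2 * S * b * b' + c * c') * (2 * S)
      + (2 * S * c * c' + d * d') := by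
  have hsymm : ∀ i j, MM i₀ z a' b' c' d' i j = MM i₀ z a' b' c' d' j i := by
    intro i j
    simp only [MM, Matrix.of_apply]
    by_cases hij : i = j
    · subst hij; rfl
    · simp only [hij, Ne.symm hij, if_false]; ring
  have h1 : ∀ i, ∑ j, MM i₀ z a b c d i j * MM i₀ z a' b' c' d' i j
      = a * a' * cc i₀ i + (a * b' + b * a' + 2 * S * b * b' + c * c') * (z i * z i)
      + (a * c' + 2 * S * b * c' + c * d') * (ee i₀ i * z i)
      + (c * a' + 2 * S * c * b' + d * c') * (ee i₀ i * z i)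
      + (2 * S * c * c' + d * d') * ee i₀ i := by
    intro i
    have := MM_mul i₀ hz hS a b c d a' b' c' d' i i
    simp only [if_true] at this
    rw [ee_mul_self, mul_comm (z i) (ee i₀ i)] at this
    rw [← this]
    apply Finset.sum_congr rfl
    intro j _
    rw [hsymm i j]
  simp only [h1, Finset.sum_add_distrib, ← Finset.mul_sum, hS, sum_cc, sum_ee, sum_ee_mul, hz]
  ring

theorem final_identity {m R R1 R2 S U g g1 g2 T y : ℝ} (hR : 0 < R) (hR1 : 0 < R1)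
    (hR2 : 0 ≤ R2) (hS : 0 ≤ S) (hU : 0 < U) (hy : y ^ 2 = U ^ 2 - R ^ 2)
    (ode : 2 * S * g2 + g1 + (m * ((R1 + 2 * S * R2) / R1)
      + 4 * (m + 3) * S * (R1 / R)) * g1
      + (m + 2) * (m + 3) * ((R * (R1 + 2 * S * R2) + 2 * S * R1 ^ 2) / R ^ 2) * g = 0) :
    (U / (R * R1)) * (T * ((m + 3) * U * (R * R1) * g + U ^ 3 * g1)) * (m + 1)
    + ((U / (R * R1)) * (T * ((m + 3) * (m + 1) * (R * R1) ^ 2 * g / U
        + (m + 3) * U * (R1 ^ 2 + R * R2) * g + 2 * (m + 3) * U * (R * R1) * g1 + U ^ 3 * g2))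
      + (-(R2 * U) / (R * R1 * (R1 + 2 * S * R2))) *
        (T * ((m + 3) * U * (R * R1) * g + U ^ 3 * g1))
      + 2 * S * (-(R2 * U) / (R * R1 * (R1 + 2 * S * R2))) *
        (T * ((m + 3) * (m + 1) * (R * R1) ^ 2 * g / U
        + (m + 3) * U * (R1 ^ 2 + R * R2) * g + 2 * (m + 3) * U * (R * R1) * g1 + U ^ 3 * g2))
      + (R1 * U / (R ^ 2 * (R1 + 2 * S * R2)) * y) *
        (T * ((m + 3) * (m + 1) * (R * R1) * g / U + (m + 3) * U * g1) * y)) * (2 * S)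
    + (2 * S * (R1 * U / (R ^ 2 * (R1 + 2 * S * R2)) * y) *
        (T * ((m + 3) * (m + 1) * (R * R1) * g / U + (m + 3) * U * g1) * y)
      + (U ^ 3 / R ^ 2 + 2 * S * U * R1 ^ 2 * y ^ 2 / (R ^ 3 * (R1 + 2 * S * R2))) *
        (T * ((m + 3) * (m + 1) * y ^ 2 * g / U + (m + 3) * U * g))) = 0 := by
  have hSig : 0 < R1 + 2 * S * R2 := by positivity
  have e1 : (R1 * U / (R ^ 2 * (R1 + 2 * S * R2)) * y) *
        (T * ((m + 3) * (m + 1) * (R * R1) * g / U + (m + 3) * U * g1) * y)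
      = (R1 * U / (R ^ 2 * (R1 + 2 * S * R2))) *
        (T * ((m + 3) * (m + 1) * (R * R1) * g / U + (m + 3) * U * g1)) * y ^ 2 := by ring
  have e2 : 2 * S * (R1 * U / (R ^ 2 * (R1 + 2 * S * R2)) * y) *
        (T * ((m + 3) * (m + 1) * (R * R1) * g / U + (m + 3) * U * g1) * y)
      = 2 * S * (R1 * U / (R ^ 2 * (R1 + 2 * S * R2))) *
        (T * ((m + 3) * (m + 1) * (R * R1) * g / U + (m + 3) * U * g1)) * y ^ 2 := by ring
  rw [e1, e2, hy]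
  have key : (U / (R * R1)) * (T * ((m + 3) * U * (R * R1) * g + U ^ 3 * g1)) * (m + 1)
    + ((U / (R * R1)) * (T * ((m + 3) * (m + 1) * (R * R1) ^ 2 * g / U
        + (m + 3) * U * (R1 ^ 2 + R * R2) * g + 2 * (m + 3) * U * (R * R1) * g1 + U ^ 3 * g2))
      + (-(R2 * U) / (R * R1 * (R1 + 2 * S * R2))) *
        (T * ((m + 3) * U * (R * R1) * g + U ^ 3 * g1))
      + 2 * S * (-(R2 * U) / (R * R1 * (R1 + 2 * S * R2))) *
        (T * ((m + 3) * (m + 1) * (R * R1) ^ 2 * g / U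
        + (m + 3) * U * (R1 ^ 2 + R * R2) * g + 2 * (m + 3) * U * (R * R1) * g1 + U ^ 3 * g2))
      + (R1 * U / (R ^ 2 * (R1 + 2 * S * R2))) *
        (T * ((m + 3) * (m + 1) * (R * R1) * g / U + (m + 3) * U * g1)) * (U ^ 2 - R ^ 2))
        * (2 * S)
    + (2 * S * (R1 * U / (R ^ 2 * (R1 + 2 * S * R2))) *
        (T * ((m + 3) * (m + 1) * (R * R1) * g / U + (m + 3) * U * g1)) * (U ^ 2 - R ^ 2)
      + (U ^ 3 / R ^ 2 + 2 * S * U * R1 ^ 2 * (U ^ 2 - R ^ 2) /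
          (R ^ 3 * (R1 + 2 * S * R2))) *
        (T * ((m + 3) * (m + 1) * (U ^ 2 - R ^ 2) * g / U + (m + 3) * U * g)))
      = (T * U ^ 4 / (R * (R1 + 2 * S * R2))) *
        (2 * S * g2 + g1 + (m * ((R1 + 2 * S * R2) / R1)
      + 4 * (m + 3) * S * (R1 / R)) * g1
      + (m + 2) * (m + 3) * ((R * (R1 + 2 * S * R2) + 2 * S * R1 ^ 2) / R ^ 2) * g) := by
    field_simp
    ring
  rw [key, ode, mul_zero]

theorem affineMaximal_uu (h : Rad R R1 R2) (hw : Wt R R1 R2 g g1 g2 m) (i₀ : Fin n)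
    (hm : n = m + 2) : AffineMaximal (uu i₀ R) := by
  intro x
  have h1 : ∀ i j, (hess (uu i₀ R) x).det * (hess (uu i₀ R) x)⁻¹ i j *
      hess (wOf (uu i₀ R)) x i j = (hess (uu i₀ R) x).det *
      ((hess (uu i₀ R) x)⁻¹ i j * hess (wOf (uu i₀ R)) x i j) := fun i j => by ring
  simp only [h1, ← Finset.mul_sum]
  have hU := uu_pos h i₀ x
  have hS := SS_nonneg i₀ x
  have hsq := uu_sq h i₀ x
  obtain ⟨hR, hR1, hR2⟩ := h.pos _ hS
  have hn : (n : ℝ) - 1 = (m : ℝ) + 1 := by rw [hm]; push_cast; ring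
  rw [uu_hess_inv h i₀ x, w_hess h hw i₀ hm x, MM_pair i₀ (zz_zero i₀ x) (zz_sum i₀ x), hn]
  have hy : x i₀ ^ 2 = uu i₀ R x ^ 2 - R (SS i₀ x) ^ 2 := by rw [hsq]; ring
  rw [final_identity (T := uu i₀ R x ^ m) hR hR1 hR2 hS hU hy (hw.ode _ hS), mul_zero]

end Vale.Agent.P252
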