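import Vale.Agent.P252.Fix

/-! The singular equation: derivative formula, a priori bounds, smoothness. -/

namespace Vale.Agent.P252

open Set MeasureTheory intervalIntegral Filter Topology
open scoped ContDiff

/-- `t * av κ f t` away from zero. -/
theorem mul_av_hasDerivAt {κ : ℝ} (hκ : 0 < κ) {f : ℝ → ℝ} (hf : Continuous f) {t : ℝ}
    (ht : 0 < t) :
    HasDerivAt (fun t => t * av κ f t) (f t - κ * av κ f t) t := by
  set K : ℝ → ℝ := fun x => ∫ τ in (0:ℝ)..x, τ ^ κ * f τ with hK
  have hc : Continuous (fun τ : ℝ => τ ^ κ * f τ) :=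
    (Continuous.rpow_const continuous_id (fun _ => Or.inr hκ.le)).mul hf
  have hrep : ∀ x, 0 < x → x * av κ f x = x ^ (-κ) * K x := by
    intro x hx
    have h1 : ∫ θ in (0:ℝ)..1, (fun τ => τ ^ κ * f τ) (θ * x) = x⁻¹ • ∫ τ in (0 * x)..(1 * x),
        (fun τ => τ ^ κ * f τ) τ :=
      intervalIntegral.integral_comp_mul_right (fun τ => τ ^ κ * f τ) hx.ne'
    rw [zero_mul, one_mul] at h1
    have h2 : ∫ θ in (0:ℝ)..1, (fun τ => τ ^ κ * f τ) (θ * x) = x ^ κ * av κ f x := by
      unfold av
      rw [← intervalIntegral.integral_const_mul]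
      apply intervalIntegral.integral_congr
      intro θ hθ
      rw [uIcc_of_le zero_le_one] at hθ
      simp only
      rw [Real.mul_rpow hθ.1 hx.le]
      ring
    rw [h2] at h1
    have h3 : K x = x * (x ^ κ * av κ f x) := by
      rw [h1]; simp only [hK, smul_eq_mul]; field_simp
    rw [h3, Real.rpow_neg hx.le]
    have : x ^ κ ≠ 0 := (Real.rpow_pos_of_pos hx κ).ne'
    field_simp
  have hKd : HasDerivAt K (t ^ κ * f t) t :=
    intervalIntegral.integral_hasDerivAt_right (hc.intervalIntegrable 0 t)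
      (hc.stronglyMeasurableAtFilter _ _) hc.continuousAt
  have hp : HasDerivAt (fun x : ℝ => x ^ (-κ)) (-κ * t ^ (-κ - 1)) t :=
    Real.hasDerivAt_rpow_const (Or.inl ht.ne')
  have hprod := hp.mul hKd
  have hev : (fun x => x * av κ f x) =ᶠ[𝓝 t] (fun x => x ^ (-κ) * K x) := by
    filter_upwards [lt_mem_nhds ht] with x hx using hrep x hx
  have h5 := hprod.congr_of_eventuallyEq hev
  have h6 : -κ * t ^ (-κ - 1) * K t + t ^ (-κ) * (t ^ κ * f t) = f t - κ * av κ f t := by
    have e1 : t ^ (-κ) * t ^ κ = 1 := by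
      rw [← Real.rpow_add ht]; simp
    have e2 : t ^ (-κ - 1) = t ^ (-κ) * t⁻¹ := by
      rw [Real.rpow_sub ht, Real.rpow_one]; rfl
    have e3 := hrep t ht
    calc -κ * t ^ (-κ - 1) * K t + t ^ (-κ) * (t ^ κ * f t)
        = -κ * t⁻¹ * (t ^ (-κ) * K t) + (t ^ (-κ) * t ^ κ) * f t := by rw [e2]; ring
      _ = f t - κ * av κ f t := by
        rw [e1, ← e3]; field_simp; ring
  rw [h6] at h5
  exact h5

/-- one-sided derivative at every point of the closed half line -/
theorem sol_hasDerivWithinAt {κ q₀ : ℝ} (hκ : 0 < κ) {f q : ℝ → ℝ} (hf : Continuous f)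
    (hq : ∀ t, 0 ≤ t → q t = q₀ + t * av κ f t) {t : ℝ} (ht : 0 ≤ t) :
    HasDerivWithinAt q (f t - κ * av κ f t) (Ici 0) t := by
  have hav := av_continuous hκ.le hf
  set g : ℝ → ℝ := fun t => q₀ + t * av κ f t with hg
  have hpos : ∀ x, 0 < x → HasDerivAt g (f x - κ * av κ f x) x := fun x hx =>
    (mul_av_hasDerivAt hκ hf hx).const_add q₀
  have hgc : Continuous g := continuous_const.add (continuous_id.mul hav)
  have key : HasDerivWithinAt g (f t - κ * av κ f t) (Ici 0) t := by
    rcases ht.eq_or_lt with h0 | h0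
    · subst h0
      apply hasDerivWithinAt_Ici_of_tendsto_deriv (s := Ioi 0)
        (fun x hx => (hpos x hx).differentiableAt.differentiableWithinAt)
        hgc.continuousWithinAt self_mem_nhdsWithin
      have h1 : Tendsto (fun x => f x - κ * av κ f x) (𝓝[>] 0) (𝓝 (f 0 - κ * av κ f 0)) :=
        ((hf.sub (continuous_const.mul hav)).tendsto 0).mono_left nhdsWithin_le_nhds
      refine h1.congr' ?_
      filter_upwards [self_mem_nhdsWithin] with x hx
      exact (hpos x hx).deriv.symm
    · exact (hpos t h0).hasDerivWithinAt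
  exact key.congr (fun x hx => hq x hx) (hq t ht)

/-- boundary inequality, upper -/
theorem upper_ineq {k x V : ℝ} (hk : 9 ≤ k) (hx : 0 < x) (hV : 1 + 4 / 9 * x ≤ V) :
    x * FF k (5/9) V x - (k + 2) / 2 * (5/9 - (2 * k + 3) / (k * (k + 2))) < 0 := by
  have hV0 : 0 < V := by linarith
  have hk0 : 0 < k := by linarith
  set c : ℝ := x / V with hc
  have hc0 : 0 < c := by positivity
  have hc1 : c < 9 / 4 := by
    rw [hc, div_lt_iff₀ hV0]; linarith
  have hx' : x = c * V := by rw [hc]; field_simp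
  have e1 : x * FF k (5/9) V x = c * (20 / 81 +
      (-k ^ 3 * (25/81) + (4 * k ^ 2 + 9 * k) * (5/9) - 2 * k - 6) / (k * (k + 4 * c)) +
      160 / 27 * c / (k + 4 * c)) := by
    have h1 : k + 4 * c ≠ 0 := by positivity
    have h2 : k * V + 4 * (c * V) = V * (k + 4 * c) := by ring
    unfold FF
    rw [hx', h2]
    field_simp
    ring
  rw [e1]
  have hden : 0 < k * (k + 4 * c) := by positivity
  have e2 : c * (20 / 81 +
      (-k ^ 3 * (25/81) + (4 * k ^ 2 + 9 * k) * (5/9) - 2 * k - 6) / (k * (k + 4 * c)) +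
      160 / 27 * c / (k + 4 * c)) - (k + 2) / 2 * (5/9 - (2 * k + 3) / (k * (k + 2)))
      = (c * (20 / 81 * (k * (k + 4 * c)) +
      (-k ^ 3 * (25/81) + (4 * k ^ 2 + 9 * k) * (5/9) - 2 * k - 6) + 160 / 27 * c * k)
      - (5 * k ^ 2 - 8 * k - 27) * (k + 4 * c) / 18) / (k * (k + 4 * c)) := by
    have h1 : k + 4 * c ≠ 0 := by positivity
    field_simp
    ring
  rw [e2]
  apply div_neg_of_neg_of_pos _ hden
  have f0 : 0 < 5 * k ^ 2 - 8 * k - 27 := by nlinarith
  nlinarith [mul_pos hc0 (sub_pos.2 hc1), mul_pos (mul_pos hc0 (sub_pos.2 hc1)) hk0,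
    mul_pos f0 (sub_pos.2 hc1), mul_nonneg (mul_nonneg hc0.le (sub_nonneg.2 hk)) hk0.le,
    mul_pos (mul_pos f0 (sub_pos.2 hc1)) hk0]

/-- boundary inequality, lower -/
theorem lower_ineq {k x V : ℝ} (hk : 9 ≤ k) (hx : 0 < x) (hV : 1 + 4 / 9 * x ≤ V) :
    0 < x * FF k 0 V x - (k + 2) / 2 * (0 - (2 * k + 3) / (k * (k + 2))) := by
  have hV0 : 0 < V := by linarith
  have hk0 : 0 < k := by linarith
  have e1 : x * FF k 0 V x - (k + 2) / 2 * (0 - (2 * k + 3) / (k * (k + 2)))
      = ((2 * k + 3) * (k * V) + 4 * k * x) / (2 * k * (k * V + 4 * x)) := by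
    have h1 : k * V + 4 * x ≠ 0 := by positivity
    unfold FF
    field_simp
    ring
  rw [e1]
  positivity

theorem cl_eq {q : ℝ} (h0 : 0 ≤ q) (h1 : q ≤ 5/9) : cl q = q := by
  unfold cl
  rw [min_eq_left h1, max_eq_right h0]

/-- The initial value. -/
noncomputable def qz (k : ℝ) : ℝ := (2 * k + 3) / (k * (k + 2))

theorem qz_pos {k : ℝ} (hk : 9 ≤ k) : 0 < qz k := by
  have hk0 : 0 < k := by linarith
  unfold qz; positivity

theorem qz_lt {k : ℝ} (hk : 9 ≤ k) : qz k < 5/9 := by
  have hk0 : 0 < k := by linarith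
  unfold qz
  rw [div_lt_iff₀ (by positivity)]
  nlinarith

/-- A priori bounds and equation for the solution of the truncated integral equation. -/
theorem sol_bounds {k : ℝ} (hk : 9 ≤ k) {q : ℝ → ℝ} (hqc : Continuous q)
    (hq : ∀ t, 0 ≤ t → q t = qz k + t * av ((k + 2) / 2) (GG k q) t) :
    ∀ t, 0 ≤ t → 0 ≤ q t ∧ q t ≤ 5/9 := by
  have hk1 : 1 ≤ k := by linarith
  have hκ : 0 < (k + 2) / 2 := by linarith
  have hG := GG_continuous hk1 hqc
  set q' : ℝ → ℝ := fun t => GG k q t - (k + 2) / 2 * av ((k + 2) / 2) (GG k q) t with hq'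
  have hd : ∀ t, 0 ≤ t → HasDerivWithinAt q (q' t) (Ici 0) t := fun t ht =>
    sol_hasDerivWithinAt hκ hG hq ht
  have hq0 : q 0 = qz k := by rw [hq 0 le_rfl]; ring
  have heq : ∀ x, 0 < x → x * q' x = x * GG k q x - (k + 2) / 2 * (q x - qz k) := by
    intro x hx
    rw [hq x hx.le]
    simp only [hq']
    ring
  intro T hT
  have hV : ∀ x, 0 < x → 1 + 4 / 9 * x ≤ VV q x := by
    intro x hx
    have := VV_ge hqc x
    rwa [max_eq_left hx.le] at this
  constructor
  · -- lower bound
    have := image_le_of_deriv_right_lt_deriv_boundary' (a := 0) (b := T)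
      (f := fun x => -q x) (f' := fun x => -q' x) (B := fun _ => 0) (B' := fun _ => 0)
      hqc.neg.continuousOn
      (fun x hx => ((hd x hx.1).mono (Ici_subset_Ici.2 hx.1)).neg)
      (by rw [hq0]; have := qz_pos hk; linarith) continuousOn_const
      (fun x _ => hasDerivWithinAt_const _ _ _)
      (by
        intro x hx hx0
        simp only [neg_eq_zero] at hx0
        rcases hx.1.eq_or_lt with h0 | h0
        · exfalso
          rw [← h0, hq0] at hx0
          have := qz_pos hk; linarith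
        · have h1 := heq x h0
          have h2 : GG k q x = FF k 0 (VV q x) x := by
            unfold GG
            rw [hx0, max_eq_left h0.le, cl_eq le_rfl (by norm_num)]
          have h3 := lower_ineq hk h0 (hV x h0)
          rw [h2, hx0] at h1
          unfold qz at h1
          rw [← h1] at h3
          have h4 : 0 < q' x := by
            by_contra h5
            push Not at h5
            have := mul_nonpos_of_nonneg_of_nonpos h0.le h5
            linarith
          linarith)
    have h6 := this (x := T) ⟨hT, le_rfl⟩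
    linarith
  · have := image_le_of_deriv_right_lt_deriv_boundary' (a := 0) (b := T)
      (f := q) (f' := q') (B := fun _ => 5/9) (B' := fun _ => 0)
      hqc.continuousOn
      (fun x hx => (hd x hx.1).mono (Ici_subset_Ici.2 hx.1))
      (by rw [hq0]; exact (qz_lt hk).le) continuousOn_const
      (fun x _ => hasDerivWithinAt_const _ _ _)
      (by
        intro x hx hx0
        rcases hx.1.eq_or_lt with h0 | h0
        · exfalso
          rw [← h0, hq0] at hx0
          have := qz_lt hk; linarith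
        · have h1 := heq x h0
          have h2 : GG k q x = FF k (5/9) (VV q x) x := by
            unfold GG
            rw [hx0, max_eq_left h0.le, cl_eq (by norm_num) le_rfl]
          have h3 := upper_ineq hk h0 (hV x h0)
          rw [h2, hx0] at h1
          unfold qz at h1
          rw [← h1] at h3
          by_contra h5
          push Not at h5
          have := mul_nonneg h0.le h5
          linarith)
    exact this ⟨hT, le_rfl⟩

/-- The profile: smooth solution on the closed half line. -/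
theorem exists_profile {k : ℝ} (hk : 9 ≤ k) : ∃ q v q' : ℝ → ℝ,
    (∀ t, 0 ≤ t → 0 ≤ q t ∧ q t ≤ 5/9) ∧ (∀ t, 0 ≤ t → 1 ≤ v t) ∧
    ContDiffOn ℝ ∞ q (Ici 0) ∧ ContDiffOn ℝ ∞ v (Ici 0) ∧
    (∀ t, 0 ≤ t → HasDerivWithinAt v (1 - q t) (Ici 0) t) ∧
    (∀ t, 0 ≤ t → HasDerivWithinAt q (q' t) (Ici 0) t) ∧
    (∀ t, 0 ≤ t → 2 * t * q' t = 2 * t * FF k (q t) (v t) t - (k + 2) * (q t - qz k)) := by
  have hk1 : 1 ≤ k := by linarith
  have hκ : 0 < (k + 2) / 2 := by linarith
  obtain ⟨q, hqc, hq⟩ := exists_trunc hk1 (qz k)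
  have hb := sol_bounds hk hqc hq
  have hG := GG_continuous hk1 hqc
  set q' : ℝ → ℝ := fun t => GG k q t - (k + 2) / 2 * av ((k + 2) / 2) (GG k q) t with hq'
  have hd : ∀ t, 0 ≤ t → HasDerivWithinAt q (q' t) (Ici 0) t := fun t ht =>
    sol_hasDerivWithinAt hκ hG hq ht
  have hVd : ∀ t, 0 ≤ t → HasDerivWithinAt (VV q) (1 - q t) (Ici 0) t := by
    intro t ht
    have hc : Continuous (fun s => 1 - cl (q s)) := continuous_const.sub (cl_continuous.comp hqc)
    have h1 : HasDerivAt (fun t => ∫ s in (0:ℝ)..t, (1 - cl (q s))) (1 - cl (q t)) t :=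
      intervalIntegral.integral_hasDerivAt_right (hc.intervalIntegrable 0 t)
        (hc.stronglyMeasurableAtFilter _ _) hc.continuousAt
    rw [cl_eq (hb t ht).1 (hb t ht).2] at h1
    have h2 := (h1.const_add 1).hasDerivWithinAt (s := Ici 0)
    refine h2.congr (fun x hx => ?_) ?_
    · unfold VV; rw [max_eq_left hx]
    · unfold VV; rw [max_eq_left ht]
  have hGF : ∀ t, 0 ≤ t → GG k q t = FF k (q t) (VV q t) t := by
    intro t ht
    unfold GG
    rw [cl_eq (hb t ht).1 (hb t ht).2, max_eq_left ht]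
  have hu := uniqueDiffOn_Ici (0:ℝ)
  have smooth : ∀ n : ℕ, ContDiffOn ℝ n q (Ici 0) ∧ ContDiffOn ℝ n (VV q) (Ici 0) := by
    intro n
    induction n with
    | zero =>
      simp only [Nat.cast_zero, contDiffOn_zero]
      exact ⟨hqc.continuousOn, (VV_continuous hqc).continuousOn⟩
    | succ n ih =>
      obtain ⟨ih1, ih2⟩ := ih
      have hn : ((n + 1 : ℕ) : WithTop ℕ∞) = (n : WithTop ℕ∞) + 1 := by push_cast; rfl
      rw [hn, contDiffOn_succ_iff_derivWithin hu, contDiffOn_succ_iff_derivWithin hu]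
      refine ⟨⟨fun t ht => (hd t ht).differentiableWithinAt, by simp, ?_⟩,
        ⟨fun t ht => (hVd t ht).differentiableWithinAt, by simp, ?_⟩⟩
      · have hGn : ContDiffOn ℝ n (GG k q) (Ici 0) := by
          have h1 : ContDiffOn ℝ n (fun t => FF k (q t) (VV q t) t) (Ici 0) := by
            intro t ht
            have h2 : ContDiffAt ℝ n (fun p : ℝ × ℝ × ℝ => FF k p.1 p.2.1 p.2.2)
                (q t, VV q t, t) := FF_contDiffAt (by linarith)
              (by have := VV_ge_one hqc t; linarith) ht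
            have h3 : ContDiffWithinAt ℝ n (fun t => (q t, VV q t, t)) (Ici 0) t :=
              (ih1 t ht).prodMk ((ih2 t ht).prodMk contDiffWithinAt_id)
            exact ContDiffAt.comp_contDiffWithinAt
              (g := fun p : ℝ × ℝ × ℝ => FF k p.1 p.2.1 p.2.2)
              (f := fun t => (q t, VV q t, t)) t h2 h3
          exact h1.congr (fun t ht => hGF t ht)
        have h4 : ContDiffOn ℝ n q' (Ici 0) :=
          hGn.sub (contDiffOn_const.mul (av_contDiffOn hκ.le hGn))
        exact h4.congr (fun t ht => (hd t ht).derivWithin (hu t ht))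
      · have h5 : ContDiffOn ℝ n (fun t => 1 - q t) (Ici 0) := contDiffOn_const.sub ih1
        exact h5.congr (fun t ht => (hVd t ht).derivWithin (hu t ht))
  refine ⟨q, VV q, q', hb, fun t _ => VV_ge_one hqc t,
    contDiffOn_infty.2 (fun n => (smooth n).1), contDiffOn_infty.2 (fun n => (smooth n).2),
    hVd, hd, ?_⟩
  intro t ht
  have h1 := hq t ht
  rw [← hGF t ht]
  simp only [hq']
  have h2 : q t - qz k = t * av ((k + 2) / 2) (GG k q) t := by rw [h1]; ring
  rw [h2]
  ring

end Vale.Agent.P252
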