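import Vale.Agent.P252.BernDefs

/-! A criterion for Riemannian completeness of metrics on `ℝⁿ`. -/

namespace Vale.Agent.P252

open Set Filter Topology MeasureTheory

variable {n : ℕ}

/-- quadratic form -/
noncomputable def qf (M : Matrix (Fin n) (Fin n) ℝ) (v : EuclideanSpace ℝ (Fin n)) : ℝ :=
  ∑ i, ∑ j, M i j * v i * v j

theorem qf_continuous {h : EuclideanSpace ℝ (Fin n) → Matrix (Fin n) (Fin n) ℝ}
    (hc : ∀ i j, Continuous fun x => h x i j) {γ : ℝ → EuclideanSpace ℝ (Fin n)}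
    (hγ : ContDiff ℝ 1 γ) : Continuous fun t => Real.sqrt (qf (h (γ t)) (deriv γ t)) := by
  apply Real.continuous_sqrt.comp
  unfold qf
  have hd : Continuous (deriv γ) := hγ.continuous_deriv le_rfl
  have hi : ∀ i, Continuous fun t => deriv γ t i := fun i =>
    (EuclideanSpace.proj i : EuclideanSpace ℝ (Fin n) →L[ℝ] ℝ).continuous.comp hd
  refine continuous_finsetSum _ fun i _ => continuous_finsetSum _ fun j _ => ?_
  exact (((hc i j).comp hγ.continuous).mul (hi i)).mul (hi j)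

theorem curveLength_nonneg (h : EuclideanSpace ℝ (Fin n) → Matrix (Fin n) (Fin n) ℝ)
    (γ : ℝ → EuclideanSpace ℝ (Fin n)) : 0 ≤ curveLength h γ :=
  intervalIntegral.integral_nonneg zero_le_one fun _ _ => Real.sqrt_nonneg _

theorem length_lower {h : EuclideanSpace ℝ (Fin n) → Matrix (Fin n) (Fin n) ℝ}
    (hc : ∀ i j, Continuous fun x => h x i j) {f : EuclideanSpace ℝ (Fin n) → ℝ}
    (hf : ContDiff ℝ 1 f) {C : ℝ} (hC : 0 < C)
    (hb : ∀ x v, (fderiv ℝ f x v) ^ 2 ≤ C * qf (h x) v)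
    {γ : ℝ → EuclideanSpace ℝ (Fin n)} (hγ : ContDiff ℝ 1 γ) :
    |f (γ 1) - f (γ 0)| ≤ Real.sqrt C * curveLength h γ := by
  have hd : Continuous (deriv γ) := hγ.continuous_deriv le_rfl
  have hF : Continuous fun t => fderiv ℝ f (γ t) (deriv γ t) :=
    ((hf.continuous_fderiv (by norm_num)).comp hγ.continuous).clm_apply hd
  have h1 : ∫ t in (0:ℝ)..1, fderiv ℝ f (γ t) (deriv γ t) = f (γ 1) - f (γ 0) := by
    apply intervalIntegral.integral_eq_sub_of_hasDerivAt (f := fun t => f (γ t))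
    · intro t _
      have a1 : HasDerivAt γ (deriv γ t) t := (hγ.differentiable (by norm_num) t).hasDerivAt
      have a2 : HasFDerivAt f (fderiv ℝ f (γ t)) (γ t) :=
        (hf.differentiable (by norm_num) (γ t)).hasFDerivAt
      exact a2.comp_hasDerivAt t a1
    · exact hF.intervalIntegrable _ _
  rw [← h1]
  have h2 := intervalIntegral.abs_integral_le_integral_abs (μ := volume)
    (f := fun t => fderiv ℝ f (γ t) (deriv γ t)) (zero_le_one (α := ℝ))
  refine h2.trans ?_
  unfold curveLength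
  rw [← intervalIntegral.integral_const_mul]
  apply intervalIntegral.integral_mono_on zero_le_one (hF.abs.intervalIntegrable _ _)
  · exact ((continuous_const.mul (qf_continuous hc hγ))).intervalIntegrable _ _
  · intro t _
    rw [← Real.sqrt_mul hC.le]
    apply Real.le_sqrt_of_sq_le
    rw [sq_abs]
    exact hb _ _

/-- the segment from `x` to `y` -/
noncomputable def seg (x y : EuclideanSpace ℝ (Fin n)) (t : ℝ) : EuclideanSpace ℝ (Fin n) :=
  x + t • (y - x)

theorem seg_contDiff (x y : EuclideanSpace ℝ (Fin n)) : ContDiff ℝ 1 (seg x y) := by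
  unfold seg
  exact contDiff_const.add (contDiff_id.smul contDiff_const)

theorem seg_deriv (x y : EuclideanSpace ℝ (Fin n)) (t : ℝ) : deriv (seg x y) t = y - x := by
  have h : HasDerivAt (seg x y) ((1:ℝ) • (y - x)) t := by
    unfold seg
    exact ((hasDerivAt_id t).smul_const (y - x)).const_add x
  rw [h.deriv, one_smul]

theorem mem_curves (h : EuclideanSpace ℝ (Fin n) → Matrix (Fin n) (Fin n) ℝ)
    (x y : EuclideanSpace ℝ (Fin n)) :
    curveLength h (seg x y) ∈ {l | ∃ γ : ℝ → EuclideanSpace ℝ (Fin n), ContDiff ℝ 1 γ ∧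
      γ 0 = x ∧ γ 1 = y ∧ (∀ t ∈ Icc (0:ℝ) 1, γ t ∈ univ) ∧ l = curveLength h γ} :=
  ⟨seg x y, seg_contDiff x y, by simp [seg], by simp [seg], fun _ _ => mem_univ _, rfl⟩

theorem riemDist_nonneg (h : EuclideanSpace ℝ (Fin n) → Matrix (Fin n) (Fin n) ℝ)
    (Ω : Set (EuclideanSpace ℝ (Fin n))) (x y : EuclideanSpace ℝ (Fin n)) :
    0 ≤ riemDist h Ω x y := by
  apply Real.sInf_nonneg
  rintro l ⟨γ, _, _, _, _, rfl⟩
  exact curveLength_nonneg h γ

theorem riemDist_le_seg (h : EuclideanSpace ℝ (Fin n) → Matrix (Fin n) (Fin n) ℝ)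
    (x y : EuclideanSpace ℝ (Fin n)) : riemDist h univ x y ≤ curveLength h (seg x y) := by
  apply csInf_le
  · refine ⟨0, ?_⟩
    rintro l ⟨γ, _, _, _, _, rfl⟩
    exact curveLength_nonneg h γ
  · exact mem_curves h x y

theorem riemDist_lower {h : EuclideanSpace ℝ (Fin n) → Matrix (Fin n) (Fin n) ℝ}
    (hc : ∀ i j, Continuous fun x => h x i j) {f : EuclideanSpace ℝ (Fin n) → ℝ}
    (hf : ContDiff ℝ 1 f) {C : ℝ} (hC : 0 < C)
    (hb : ∀ x v, (fderiv ℝ f x v) ^ 2 ≤ C * qf (h x) v)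
    (x y : EuclideanSpace ℝ (Fin n)) :
    |f x - f y| ≤ Real.sqrt C * riemDist h univ x y := by
  have hs : 0 < Real.sqrt C := Real.sqrt_pos.2 hC
  rw [← div_le_iff₀' hs]
  apply le_csInf ⟨_, mem_curves h x y⟩
  rintro l ⟨γ, hγ, rfl, rfl, _, rfl⟩
  rw [div_le_iff₀' hs, abs_sub_comm]
  exact length_lower hc hf hC hb hγ

theorem abs_coord_le (v : EuclideanSpace ℝ (Fin n)) (i : Fin n) : |v i| ≤ ‖v‖ := by
  have := PiLp.norm_apply_le v i
  simpa [Real.norm_eq_abs] using this

theorem qf_le (M : Matrix (Fin n) (Fin n) ℝ) (v : EuclideanSpace ℝ (Fin n)) :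
    qf M v ≤ (∑ i, ∑ j, |M i j|) * ‖v‖ ^ 2 := by
  unfold qf
  rw [Finset.sum_mul]
  refine Finset.sum_le_sum fun i _ => ?_
  rw [Finset.sum_mul]
  refine Finset.sum_le_sum fun j _ => ?_
  have h1 := abs_coord_le v i
  have h2 := abs_coord_le v j
  have h3 : M i j * v i * v j ≤ |M i j| * (|v i| * |v j|) := by
    refine (le_abs_self _).trans ?_
    rw [abs_mul, abs_mul, mul_assoc]
  refine h3.trans ?_
  apply mul_le_mul_of_nonneg_left _ (abs_nonneg _)
  rw [sq]
  exact mul_le_mul h1 h2 (abs_nonneg _) (norm_nonneg _)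

/-- the segment has small length near a given point -/
theorem seg_length_le {h : EuclideanSpace ℝ (Fin n) → Matrix (Fin n) (Fin n) ℝ}
    (hc : ∀ i j, Continuous fun x => h x i j) (x₀ : EuclideanSpace ℝ (Fin n)) :
    ∃ K : ℝ, 0 ≤ K ∧ ∀ x y, x ∈ Metric.closedBall x₀ 1 → y ∈ Metric.closedBall x₀ 1 →
      curveLength h (seg x y) ≤ K * ‖y - x‖ := by
  have hcont : Continuous fun x => ∑ i, ∑ j, |h x i j| :=
    continuous_finsetSum _ fun i _ => continuous_finsetSum _ fun j _ => (hc i j).abs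
  obtain ⟨M, hM⟩ := (isCompact_closedBall x₀ 1).exists_bound_of_continuousOn hcont.continuousOn
  have hM0 : 0 ≤ M := (norm_nonneg _).trans (hM x₀ (by simp))
  refine ⟨Real.sqrt M, Real.sqrt_nonneg _, ?_⟩
  intro x y hx hy
  unfold curveLength
  have h1 : ∀ t ∈ Icc (0:ℝ) 1,
      Real.sqrt (qf (h (seg x y t)) (deriv (seg x y) t)) ≤ Real.sqrt M * ‖y - x‖ := by
    intro t ht
    have hmem : seg x y t ∈ Metric.closedBall x₀ 1 := by
      have := (convex_closedBall x₀ (1:ℝ)).add_smul_sub_mem hx hy ht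
      exact this
    have h2 := hM _ hmem
    rw [Real.norm_eq_abs, abs_of_nonneg (Finset.sum_nonneg fun i _ => Finset.sum_nonneg
      fun j _ => abs_nonneg _)] at h2
    rw [seg_deriv]
    calc Real.sqrt (qf (h (seg x y t)) (y - x)) ≤ Real.sqrt (M * ‖y - x‖ ^ 2) := by
          apply Real.sqrt_le_sqrt
          refine (qf_le _ _).trans ?_
          exact mul_le_mul_of_nonneg_right h2 (by positivity)
      _ = Real.sqrt M * ‖y - x‖ := by
          rw [Real.sqrt_mul hM0, Real.sqrt_sq (norm_nonneg _)]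
  have h3 : ∫ t in (0:ℝ)..1, Real.sqrt (qf (h (seg x y t)) (deriv (seg x y) t))
      ≤ ∫ _t in (0:ℝ)..1, Real.sqrt M * ‖y - x‖ := by
    apply intervalIntegral.integral_mono_on zero_le_one
    · exact (qf_continuous hc (seg_contDiff x y)).intervalIntegrable _ _
    · exact intervalIntegrable_const
    · exact h1
  rw [intervalIntegral.integral_const, sub_zero, one_smul] at h3
  exact h3

/-- Criterion for completeness. -/
theorem riemComplete_of {h : EuclideanSpace ℝ (Fin n) → Matrix (Fin n) (Fin n) ℝ}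
    (hc : ∀ i j, Continuous fun x => h x i j) {ι : Type} (f : ι → EuclideanSpace ℝ (Fin n) → ℝ)
    (hf : ∀ a, ContDiff ℝ 1 (f a)) {C : ℝ} (hC : 0 < C)
    (hb : ∀ a x v, (fderiv ℝ (f a) x v) ^ 2 ≤ C * qf (h x) v)
    (hconv : ∀ s : ℕ → EuclideanSpace ℝ (Fin n),
      (∀ a, ∃ l, Tendsto (fun k => f a (s k)) atTop (𝓝 l)) → ∃ x, Tendsto s atTop (𝓝 x)) :
    RiemComplete h univ := by
  intro s _ hs
  have hsC : 0 < Real.sqrt C := Real.sqrt_pos.2 hC
  obtain ⟨x, hx⟩ := hconv s (by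
    intro a
    have hcs : CauchySeq (fun k => f a (s k)) := by
      rw [Metric.cauchySeq_iff]
      intro ε hε
      obtain ⟨N, hN⟩ := hs (ε / Real.sqrt C) (by positivity)
      refine ⟨N, fun k hk l hl => ?_⟩
      rw [Real.dist_eq]
      refine (riemDist_lower hc (hf a) hC (hb a) (s k) (s l)).trans_lt ?_
      have := hN k hk l hl
      rw [lt_div_iff₀' hsC] at this
      exact this
    exact cauchySeq_tendsto_of_complete hcs)
  refine ⟨x, mem_univ _, ?_⟩
  obtain ⟨K, hK0, hK⟩ := seg_length_le hc x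
  have h1 : ∀ᶠ k in atTop, s k ∈ Metric.closedBall x 1 :=
    hx.eventually (Metric.closedBall_mem_nhds x one_pos)
  have h2 : Tendsto (fun k => K * ‖x - s k‖) atTop (𝓝 0) := by
    have h3 : Tendsto (fun k => x - s k) atTop (𝓝 (x - x)) := tendsto_const_nhds.sub hx
    have h4 := (h3.norm).const_mul K
    simpa using h4
  refine squeeze_zero' (Eventually.of_forall fun k => riemDist_nonneg h univ _ _) ?_ h2
  filter_upwards [h1] with k hk
  exact (riemDist_le_seg h (s k) x).trans (hK _ _ hk (by simp))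

end Vale.Agent.P252
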